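import Vale.Agent.P159.MathlibUsed

/-!
Two paths of triangles crossing a triangulated square in the two directions have an edge in common.
-/

namespace Vale.Agent.P159.H170

/-- triangles of the square `[0,N]²`: `(i,j,false)` is the lower triangle (corners `(i,j)`,
`(i+1,j)`, `(i+1,j+1)`) and `(i,j,true)` the upper triangle (corners `(i,j)`, `(i,j+1)`,
`(i+1,j+1)`) of the unit square at `(i,j)` -/
abbrev Face (N : ℕ) : Type := Fin N × Fin N × Bool

/-- sides: `(i,j,0)` diagonal, `(i,j,1)` right side, `(i,j,2)` lower side of the unit square at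
`(i,j)`; the sides on the boundary of the square are loops -/
abbrev Edg (N : ℕ) : Type := Fin N × Fin N × Fin 3

/-- first triangle of a side -/
def src {N : ℕ} (e : Edg N) : Face N := (e.1, e.2.1, false)

/-- second triangle of a side -/
def tgt {N : ℕ} (e : Edg N) : Face N :=
  if e.2.2 = 0 then (e.1, e.2.1, true)
  else if e.2.2 = 1 then
    (if h : (e.1 : ℕ) + 1 < N then (⟨(e.1 : ℕ) + 1, h⟩, e.2.1, true) else (e.1, e.2.1, false))
  else
    (if 0 < (e.2.1 : ℕ) then (e.1, ⟨(e.2.1 : ℕ) - 1, by omega⟩, true)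
      else (e.1, e.2.1, false))

/-- neighbours through a side of `S` -/
def Adj {F E : Type*} (s t : E → F) (S : Finset E) (a b : F) : Prop :=
  ∃ e ∈ S, (s e = a ∧ t e = b) ∨ (s e = b ∧ t e = a)

/-- connection through the sides of `S` -/
def Conn {F E : Type*} (s t : E → F) (S : Finset E) (a b : F) : Prop :=
  Relation.ReflTransGen (Adj s t S) a b

theorem zmod2_cases (x : ZMod 2) : x = 0 ∨ x = 1 := by
  fin_cases x
  · left; rfl
  · right; rfl

theorem add_self_zmod2 (x : ZMod 2) : x + x = 0 := by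
  rcases zmod2_cases x with h | h <;> rw [h] <;> decide

theorem eq_of_add_eq_zero {x y : ZMod 2} (h : x + y = 0) : x = y := by
  rcases zmod2_cases x with hx | hx <;> rcases zmod2_cases y with hy | hy <;>
    subst hx <;> subst hy <;> first | rfl | (exact absurd h (by decide))

/-- the crossing numbers mod 2 of a path of triangles -/
structure Cochain (N : ℕ) (S : Finset (Edg N)) (x y : Face N) where
  v : ℕ → ℕ → ZMod 2
  h : ℕ → ℕ → ZMod 2
  d : ℕ → ℕ → ZMod 2
  hv : ∀ i j, v i j ≠ 0 → ∃ (a b : Fin N), (a : ℕ) + 1 = i ∧ (b : ℕ) = j ∧ i < N ∧ (a, b, 1) ∈ S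
  hh : ∀ i j, h i j ≠ 0 → ∃ (a b : Fin N), (a : ℕ) = i ∧ (b : ℕ) = j ∧ 0 < j ∧ (a, b, 2) ∈ S
  hd : ∀ i j, d i j ≠ 0 → ∃ (a b : Fin N), (a : ℕ) = i ∧ (b : ℕ) = j ∧ (a, b, 0) ∈ S
  low : ∀ a b : Fin N, h a b + v (a + 1) b + d a b =
    (if x = (a, b, false) then 1 else 0) + (if y = (a, b, false) then 1 else 0)
  up : ∀ a b : Fin N, v a b + h a (b + 1) + d a b =
    (if x = (a, b, true) then 1 else 0) + (if y = (a, b, true) then 1 else 0)

theorem cochain_refl {N : ℕ} (S : Finset (Edg N)) (x : Face N) : Nonempty (Cochain N S x x) := by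
  refine ⟨⟨fun _ _ => 0, fun _ _ => 0, fun _ _ => 0, ?_, ?_, ?_, ?_, ?_⟩⟩
  · intro i j h; exact absurd rfl h
  · intro i j h; exact absurd rfl h
  · intro i j h; exact absurd rfl h
  · intro a b; simp only [add_zero]; exact (add_self_zmod2 _).symm
  · intro a b; simp only [add_zero]; exact (add_self_zmod2 _).symm

theorem cochain_symm {N : ℕ} {S : Finset (Edg N)} {x y : Face N} (c : Cochain N S x y) :
    Nonempty (Cochain N S y x) :=
  ⟨⟨c.v, c.h, c.d, c.hv, c.hh, c.hd, fun a b => by rw [c.low a b, add_comm],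
    fun a b => by rw [c.up a b, add_comm]⟩⟩

theorem cochain_trans {N : ℕ} {S : Finset (Edg N)} {x y z : Face N}
    (c : Cochain N S x y) (c' : Cochain N S y z) : Nonempty (Cochain N S x z) := by
  refine ⟨⟨fun i j => c.v i j + c'.v i j, fun i j => c.h i j + c'.h i j,
    fun i j => c.d i j + c'.d i j, ?_, ?_, ?_, ?_, ?_⟩⟩
  · intro i j h
    by_cases h1 : c.v i j = 0
    · refine c'.hv i j ?_
      intro h2; apply h; rw [h1, h2, add_zero]
    · exact c.hv i j h1
  · intro i j h
    by_cases h1 : c.h i j = 0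
    · refine c'.hh i j ?_
      intro h2; apply h; rw [h1, h2, add_zero]
    · exact c.hh i j h1
  · intro i j h
    by_cases h1 : c.d i j = 0
    · refine c'.hd i j ?_
      intro h2; apply h; rw [h1, h2, add_zero]
    · exact c.hd i j h1
  · intro a b
    have e1 := c.low a b
    have e2 := c'.low a b
    have e3 := add_self_zmod2 (if y = (a, b, false) then 1 else 0)
    calc c.h a b + c'.h a b + (c.v (a + 1) b + c'.v (a + 1) b) + (c.d a b + c'.d a b)
        = (c.h a b + c.v (a + 1) b + c.d a b) + (c'.h a b + c'.v (a + 1) b + c'.d a b) := by ring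
      _ = _ := by rw [e1, e2]; linear_combination e3
  · intro a b
    have e1 := c.up a b
    have e2 := c'.up a b
    have e3 := add_self_zmod2 (if y = (a, b, true) then 1 else 0)
    calc c.v a b + c'.v a b + (c.h a (b + 1) + c'.h a (b + 1)) + (c.d a b + c'.d a b)
        = (c.v a b + c.h a (b + 1) + c.d a b) + (c'.v a b + c'.h a (b + 1) + c'.d a b) := by ring
      _ = _ := by rw [e1, e2]; linear_combination e3

theorem cochain_edge {N : ℕ} {S : Finset (Edg N)} (e : Edg N) (he : e ∈ S) :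
    Nonempty (Cochain N S (src e) (tgt e)) := by
  classical
  obtain ⟨a, b, k⟩ := e
  by_cases h0 : k = 0
  · subst h0
    refine ⟨⟨fun _ _ => 0, fun _ _ => 0, fun i j => if (a : ℕ) = i ∧ (b : ℕ) = j then 1 else 0,
      ?_, ?_, ?_, ?_, ?_⟩⟩
    · intro i j h; exact absurd rfl h
    · intro i j h; exact absurd rfl h
    · intro i j h
      by_cases h1 : (a : ℕ) = i ∧ (b : ℕ) = j
      · exact ⟨a, b, h1.1, h1.2, he⟩
      · exact absurd (if_neg h1) h
    · intro a' b'
      simp [src, tgt, Fin.ext_iff]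
    · intro a' b'
      simp [src, tgt, Fin.ext_iff]
  by_cases h1 : k = 1
  · subst h1
    by_cases hN : (a : ℕ) + 1 < N
    · refine ⟨⟨fun i j => if (a : ℕ) + 1 = i ∧ (b : ℕ) = j then 1 else 0, fun _ _ => 0,
        fun _ _ => 0, ?_, ?_, ?_, ?_, ?_⟩⟩
      · intro i j h
        by_cases h1 : (a : ℕ) + 1 = i ∧ (b : ℕ) = j
        · exact ⟨a, b, h1.1, h1.2, h1.1 ▸ hN, he⟩
        · exact absurd (if_neg h1) h
      · intro i j h; exact absurd rfl h
      · intro i j h; exact absurd rfl h
      · intro a' b'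
        simp [src, tgt, Fin.ext_iff, hN]
      · intro a' b'
        simp [src, tgt, Fin.ext_iff, hN]
    · have : tgt ((a, b, 1) : Edg N) = src (a, b, 1) := by
        simp [src, tgt, hN]
      rw [this]
      exact cochain_refl S _
  · have h2 : k = 2 := by omega
    subst h2
    by_cases hb : 0 < (b : ℕ)
    · refine ⟨⟨fun _ _ => 0, fun i j => if (a : ℕ) = i ∧ (b : ℕ) = j then 1 else 0,
        fun _ _ => 0, ?_, ?_, ?_, ?_, ?_⟩⟩
      · intro i j h; exact absurd rfl h
      · intro i j h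
        by_cases h1 : (a : ℕ) = i ∧ (b : ℕ) = j
        · exact ⟨a, b, h1.1, h1.2, h1.2 ▸ hb, he⟩
        · exact absurd (if_neg h1) h
      · intro i j h; exact absurd rfl h
      · intro a' b'
        simp [src, tgt, Fin.ext_iff, hb]
      · intro a' b'
        simp only [zero_add, add_zero, src, tgt, hb, if_true, Prod.mk.injEq, Fin.ext_iff]
        have : ((b : ℕ) = (b' : ℕ) + 1) ↔ ((b : ℕ) - 1 = (b' : ℕ)) := by omega
        simp [this, Fin.ext_iff]
    · have : tgt ((a, b, 2) : Edg N) = src (a, b, 2) := by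
        simp [src, tgt, hb]
      rw [this]
      exact cochain_refl S _

theorem cochain_of_conn {N : ℕ} {S : Finset (Edg N)} {x y : Face N} (h : Conn src tgt S x y) :
    Nonempty (Cochain N S x y) := by
  induction h with
  | refl => exact cochain_refl S x
  | tail _ hyz ih =>
    obtain ⟨c⟩ := ih
    obtain ⟨e, he, h | h⟩ := hyz
    · obtain ⟨c'⟩ := cochain_edge e he
      rw [h.1, h.2] at c'
      exact cochain_trans c c'
    · obtain ⟨c'⟩ := cochain_edge e he
      rw [h.1, h.2] at c'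
      obtain ⟨c''⟩ := cochain_symm c'
      exact cochain_trans c c''

/-- left side triangles -/
def IsLeft {N : ℕ} (x : Face N) : Prop := (x.1 : ℕ) = 0 ∧ x.2.2 = true

/-- right side triangles -/
def IsRight {N : ℕ} (x : Face N) : Prop := (x.1 : ℕ) + 1 = N ∧ x.2.2 = false

/-- top side triangles -/
def IsTop {N : ℕ} (x : Face N) : Prop := (x.2.1 : ℕ) + 1 = N ∧ x.2.2 = true

/-- bottom side triangles -/
def IsBot {N : ℕ} (x : Face N) : Prop := (x.2.1 : ℕ) = 0 ∧ x.2.2 = false

/-- two of the three corners carry the value `1` -/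
def Two (u v w : ZMod 2) : Prop := (u = 1 ∧ v = 1) ∨ (v = 1 ∧ w = 1) ∨ (u = 1 ∧ w = 1)

/-- two corners of the triangle carry the value `1` -/
def TwoAt {N : ℕ} (c : ℕ → ℕ → ZMod 2) (x : Face N) : Prop :=
  if x.2.2 = true then Two (c x.1 x.2.1) (c x.1 (x.2.1 + 1)) (c (x.1 + 1) (x.2.1 + 1))
  else Two (c x.1 x.2.1) (c (x.1 + 1) x.2.1) (c (x.1 + 1) (x.2.1 + 1))

/-- crossing paths use a common side -/
theorem no_cross {N : ℕ} {S T : Finset (Edg N)} (hST : Disjoint S T) {x y x' y' : Face N}
    (hx : IsLeft x) (hy : IsRight y) (hxy : Conn src tgt S x y)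
    (hx' : IsTop x') (hy' : IsBot y') (hxy' : Conn src tgt T x' y') : False := by
  obtain ⟨ω⟩ := cochain_of_conn hxy
  obtain ⟨⟨x1, hx1⟩, ⟨x2, hx2⟩, x3⟩ := x
  obtain ⟨⟨y1, hy1⟩, ⟨y2, hy2⟩, y3⟩ := y
  obtain ⟨hxa, hxb⟩ := hx
  obtain ⟨hya, hyb⟩ := hy
  simp only at hxa hxb hya hyb
  subst hxa hxb hyb
  have hN : 0 < N := by omega
  -- the crossing numbers with the two boundary sides
  obtain ⟨V, hV⟩ : ∃ V : ℕ → ℕ → ZMod 2, V = fun i j => ω.v i j + (if i = 0 ∧ j = x2 then 1 else 0)
    + (if i = N ∧ j = y2 then 1 else 0) := ⟨_, rfl⟩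
  have hlow : ∀ a b : ℕ, a < N → b < N → ω.h a b + V (a + 1) b + ω.d a b = 0 := by
    intro a b ha hb
    have h := ω.low ⟨a, ha⟩ ⟨b, hb⟩
    simp only [Prod.mk.injEq, Fin.mk.injEq, Bool.true_eq_false, and_false, if_false, and_true,
      zero_add] at h
    rw [hV]
    simp only [Nat.succ_ne_zero, false_and, if_false, add_zero]
    have e1 : (a + 1 = N ∧ b = y2) ↔ (y1 = a ∧ y2 = b) := by
      constructor
      · rintro ⟨h1, h2⟩; exact ⟨by omega, h2.symm⟩
      · rintro ⟨h1, h2⟩; exact ⟨by omega, h2.symm⟩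
    rw [if_congr e1 rfl rfl]
    have e2 := add_self_zmod2 (if y1 = a ∧ y2 = b then 1 else 0)
    linear_combination h + e2
  have hup : ∀ a b : ℕ, a < N → b < N → V a b + ω.h a (b + 1) + ω.d a b = 0 := by
    intro a b ha hb
    have h := ω.up ⟨a, ha⟩ ⟨b, hb⟩
    simp only [Prod.mk.injEq, Fin.mk.injEq, Bool.false_eq_true, and_false, if_false, and_true,
      add_zero] at h
    rw [hV]
    have e3 : ¬ (a = N ∧ b = y2) := by rintro ⟨h1, -⟩; omega
    simp only [if_neg e3, add_zero]
    have e1 : (a = 0 ∧ b = x2) ↔ (0 = a ∧ x2 = b) := by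
      constructor
      · rintro ⟨h1, h2⟩; exact ⟨h1.symm, h2.symm⟩
      · rintro ⟨h1, h2⟩; exact ⟨h1.symm, h2.symm⟩
    rw [if_congr e1 rfl rfl]
    have e2 := add_self_zmod2 (if 0 = a ∧ x2 = b then 1 else 0)
    linear_combination h + e2
  obtain ⟨c, hc⟩ : ∃ c : ℕ → ℕ → ZMod 2, c = fun i j => ∑ k ∈ Finset.range j, V i k := ⟨_, rfl⟩
  have hcs : ∀ i j, c i (j + 1) = c i j + V i j := by
    intro i j; rw [hc]; exact Finset.sum_range_succ _ _
  have hc0 : ∀ i, c i 0 = 0 := by intro i; rw [hc]; exact Finset.sum_range_zero _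
  have hh0 : ∀ i, ω.h i 0 = 0 := by
    intro i; by_contra h
    obtain ⟨a, b, -, -, h3, -⟩ := ω.hh i 0 h
    omega
  have hhN : ∀ i, ω.h i N = 0 := by
    intro i; by_contra h
    obtain ⟨a, b, -, h2, -, -⟩ := ω.hh i N h
    have := b.2
    omega
  have hrow : ∀ i, i < N → ∀ j, j ≤ N → c (i + 1) j + c i j = ω.h i j := by
    intro i hi j
    induction j with
    | zero => intro _; rw [hc0, hc0, hh0]; rfl
    | succ j ih =>
      intro hj
      have h1 := ih (by omega)
      have h2 := hlow i j hi (by omega)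
      have h3 := hup i j hi (by omega)
      rw [hcs, hcs]
      have e1 := add_self_zmod2 (ω.h i j)
      have e2 := add_self_zmod2 (ω.d i j)
      have e3 := add_self_zmod2 (ω.h i (j + 1))
      linear_combination h1 + h2 + h3 - e2 - e3
  have hv0 : ∀ k, ω.v 0 k = 0 := by
    intro k; by_contra h
    obtain ⟨a, b, h1, -, -, -⟩ := ω.hv 0 k h
    omega
  have hc0N : c 0 N = 1 := by
    rw [hc]
    simp only [hV, hv0, zero_add, true_and]
    have : ∀ k ∈ Finset.range N, ((if k = x2 then (1 : ZMod 2) else 0) +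
        (if 0 = N ∧ k = y2 then 1 else 0)) = if k = x2 then 1 else 0 := by
      intro k _
      have : ¬ (0 = N ∧ k = y2) := by rintro ⟨h1, -⟩; omega
      rw [if_neg this, add_zero]
    rw [Finset.sum_congr rfl this, Finset.sum_ite_eq', if_pos (Finset.mem_range.2 hx2)]
  have hcN : ∀ i, i ≤ N → c i N = 1 := by
    intro i
    induction i with
    | zero => intro _; exact hc0N
    | succ i ih =>
      intro hi
      have h1 := hrow i (by omega) N le_rfl
      rw [hhN, ih (by omega)] at h1
      have e1 : (1 : ZMod 2) + 1 = 0 := by decide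
      linear_combination h1 - e1
  -- sides of `T` are not crossed
  have hdT : ∀ a b : Fin N, ((a, b, 0) : Edg N) ∈ T → c (a + 1) (b + 1) = c a b := by
    intro a b h
    have h1 : ω.d a b = 0 := by
      by_contra h2
      obtain ⟨a', b', ha', hb', h3⟩ := ω.hd a b h2
      have e1 : a' = a := Fin.ext ha'
      have e2 : b' = b := Fin.ext hb'
      rw [e1, e2] at h3
      exact Finset.disjoint_left.1 hST h3 h
    have h2 := hlow a b a.2 b.2
    have h3 := hrow a a.2 b (by omega)
    rw [hcs]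
    have e1 := add_self_zmod2 (ω.h a b)
    have e2 := add_self_zmod2 (c a b)
    linear_combination h2 + h3 - h1 - e2
  have hvT : ∀ a b : Fin N, (a : ℕ) + 1 < N → ((a, b, 1) : Edg N) ∈ T →
      c (a + 1) (b + 1) = c (a + 1) b := by
    intro a b ha h
    have h1 : V (a + 1) b = 0 := by
      rw [hV]
      have e1 : ¬ ((a : ℕ) + 1 = 0 ∧ (b : ℕ) = x2) := by rintro ⟨h1, -⟩; omega
      have e2 : ¬ ((a : ℕ) + 1 = N ∧ (b : ℕ) = y2) := by rintro ⟨h1, -⟩; omega
      simp only [if_neg e1, if_neg e2, add_zero]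
      by_contra h2
      obtain ⟨a', b', ha', hb', -, h3⟩ := ω.hv (a + 1) b h2
      have e1 : a' = a := Fin.ext (by omega)
      have e2 : b' = b := Fin.ext hb'
      rw [e1, e2] at h3
      exact Finset.disjoint_left.1 hST h3 h
    rw [hcs, h1, add_zero]
  have hhT : ∀ a b : Fin N, 0 < (b : ℕ) → ((a, b, 2) : Edg N) ∈ T →
      c (a + 1) b = c a b := by
    intro a b hb h
    have h1 : ω.h a b = 0 := by
      by_contra h2
      obtain ⟨a', b', ha', hb', -, h3⟩ := ω.hh a b h2
      have e1 : a' = a := Fin.ext ha'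
      have e2 : b' = b := Fin.ext hb'
      rw [e1, e2] at h3
      exact Finset.disjoint_left.1 hST h3 h
    have h3 := hrow a a.2 b (by omega)
    rw [h1] at h3
    exact eq_of_add_eq_zero h3
  -- the corners carrying the value one are followed along the second path
  have hedge : ∀ e ∈ T, (TwoAt c (src e) ↔ TwoAt c (tgt e)) := by
    rintro ⟨a, b, k⟩ he
    by_cases h0 : k = 0
    · subst h0
      have h1 := hdT a b he
      simp only [TwoAt, src, tgt, if_true, Bool.false_eq_true, if_false, Two]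
      rw [h1]
      tauto
    by_cases h1 : k = 1
    · subst h1
      by_cases hN : (a : ℕ) + 1 < N
      · have h1 := hvT a b hN he
        simp only [TwoAt, src, tgt, hN, dif_pos, if_true, Bool.false_eq_true, if_false, Two,
          one_ne_zero]
        rw [h1]
        tauto
      · simp [TwoAt, src, tgt, hN]
    · have h2 : k = 2 := by omega
      subst h2
      by_cases hb : 0 < (b : ℕ)
      · have h1 := hhT a b hb he
        have e1 : (b : ℕ) - 1 + 1 = b := by omega
        have e2 : ¬ ((2 : Fin 3) = 0) := by decide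
        have e3 : ¬ ((2 : Fin 3) = 1) := by decide
        simp only [TwoAt, src, tgt, hb, if_true, Bool.false_eq_true, if_false, Two, e1, if_neg e2,
          if_neg e3]
        rw [h1]
        tauto
      · simp [TwoAt, src, tgt, hb]
  have hpath : ∀ z, Conn src tgt T x' z → TwoAt c z := by
    intro z hz
    induction hz with
    | refl =>
      obtain ⟨⟨a, ha⟩, ⟨b, hb⟩, k⟩ := x'
      obtain ⟨h1, h2⟩ := hx'
      simp only at h1 h2
      subst h2
      simp only [TwoAt, if_true, Two]
      rw [h1, hcN a (by omega), hcN (a + 1) (by omega)]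
      tauto
    | tail _ hyz ih =>
      obtain ⟨e, he, h | h⟩ := hyz
      · rw [← h.2, ← hedge e he, h.1]; exact ih
      · rw [← h.1, hedge e he, h.2]; exact ih
  have hfin := hpath y' hxy'
  obtain ⟨⟨a, ha⟩, ⟨b, hb⟩, k⟩ := y'
  obtain ⟨h1, h2⟩ := hy'
  simp only at h1 h2
  subst h1 h2
  simp only [TwoAt, Bool.false_eq_true, if_false, Two, hc0] at hfin
  have e1 : ¬ ((0 : ZMod 2) = 1) := by decide
  tauto

end Vale.Agent.P159.H170
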