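import Vale.Agent.P159.H170.Cross

/-!
Cluster expansion of the level lines of integer valued heights on a finite graph.
-/

open scoped BigOperators

namespace Vale.Agent.P159.H170

/-- a coupling inequality for two families of independent choices -/
theorem coupling {E : Type*} [DecidableEq E] (s : Finset E) (a b a' b' w : E → ℝ) (K : E → Prop)
    (ha : ∀ e, 0 ≤ a e) (hb : ∀ e, 0 ≤ b e) (ha' : ∀ e, 0 ≤ a' e) (hb' : ∀ e, 0 ≤ b' e)
    (hab : ∀ e, a e + b e = w e) (hab' : ∀ e, a' e + b' e = w e)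
    (hK : ∀ e, K e → a e + a' e ≤ w e) :
    ∀ f g : Finset E → ℝ,
    (∀ S T : Finset E, S ⊆ s → T ⊆ s → (∀ e ∈ S, e ∈ T → ¬ K e) → f S + g T ≤ 1) →
    ∑ S ∈ s.powerset, (∏ e ∈ S, a e) * (∏ e ∈ s \ S, b e) * f S +
      ∑ S ∈ s.powerset, (∏ e ∈ S, a' e) * (∏ e ∈ s \ S, b' e) * g S ≤ ∏ e ∈ s, w e := by
  induction s using Finset.induction_on with
  | empty =>
    intro f g h
    have := h ∅ ∅ (Finset.Subset.refl _) (Finset.Subset.refl _) (by simp)
    simpa using this
  | insert e s he ih =>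
    intro f g h
    have hw : 0 ≤ w e := by rw [← hab e]; exact add_nonneg (ha e) (hb e)
    have key : ∀ (p q : E → ℝ) (φ : Finset E → ℝ),
        ∑ S ∈ (insert e s).powerset, (∏ x ∈ S, p x) * (∏ x ∈ insert e s \ S, q x) * φ S =
        ∑ S ∈ s.powerset, (∏ x ∈ S, p x) * (∏ x ∈ s \ S, q x) *
          (q e * φ S + p e * φ (insert e S)) := by
      intro p q φ
      rw [Finset.sum_powerset_insert he, ← Finset.sum_add_distrib]
      refine Finset.sum_congr rfl fun S hS => ?_
      have hS' : S ⊆ s := Finset.mem_powerset.1 hS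
      have heS : e ∉ S := fun h => he (hS' h)
      have e1 : insert e s \ S = insert e (s \ S) := by
        rw [Finset.insert_sdiff_of_notMem _ heS]
      have e2 : insert e s \ insert e S = s \ S := by
        ext x
        simp only [Finset.mem_sdiff, Finset.mem_insert, not_or]
        constructor
        · rintro ⟨h1 | h1, h2, h3⟩
          · exact absurd h1 h2
          · exact ⟨h1, h3⟩
        · rintro ⟨h1, h3⟩
          exact ⟨Or.inr h1, fun h => he (h ▸ h1), h3⟩
      have e3 : e ∉ s \ S := fun h => he (Finset.mem_sdiff.1 h).1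
      rw [e1, e2, Finset.prod_insert e3, Finset.prod_insert heS]
      ring
    rw [key a b f, key a' b' g, Finset.prod_insert he]
    rcases hw.eq_or_lt with h0 | hpos
    · have h1 := hab e
      have h2 := hab' e
      have ea : a e = 0 := by linarith [ha e, hb e]
      have eb : b e = 0 := by linarith [ha e, hb e]
      have ea' : a' e = 0 := by linarith [ha' e, hb' e]
      have eb' : b' e = 0 := by linarith [ha' e, hb' e]
      rw [ea, eb, ea', eb', ← h0]
      simp
    · have h1 := ih (fun S => (b e * f S + a e * f (insert e S)) / w e)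
        (fun S => (b' e * g S + a' e * g (insert e S)) / w e) ?_
      · have e1 : ∀ (p q : E → ℝ) (φ : Finset E → ℝ),
            ∑ S ∈ s.powerset, (∏ x ∈ S, p x) * (∏ x ∈ s \ S, q x) * φ S =
            w e * ∑ S ∈ s.powerset, (∏ x ∈ S, p x) * (∏ x ∈ s \ S, q x) * (φ S / w e) := by
          intro p q φ
          rw [Finset.mul_sum]
          refine Finset.sum_congr rfl fun S _ => ?_
          field_simp
        rw [e1 a b, e1 a' b', ← mul_add]
        exact mul_le_mul_of_nonneg_left h1 hw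
      · intro S T hS hT hST
        rw [← add_div, div_le_one hpos]
        have heS : e ∉ S := fun h => he (hS h)
        have heT : e ∉ T := fun h => he (hT h)
        have sub1 : ∀ {S : Finset E}, S ⊆ s → S ⊆ insert e s := fun h =>
          h.trans (Finset.subset_insert e s)
        have sub2 : ∀ {S : Finset E}, S ⊆ s → insert e S ⊆ insert e s := fun h =>
          Finset.insert_subset_insert e h
        have h00 := h S T (sub1 hS) (sub1 hT) hST
        have h10 := h (insert e S) T (sub2 hS) (sub1 hT) (by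
          intro x hx hxT
          rcases Finset.mem_insert.1 hx with rfl | hx
          · exact absurd hxT heT
          · exact hST x hx hxT)
        have h01 := h S (insert e T) (sub1 hS) (sub2 hT) (by
          intro x hx hxT
          rcases Finset.mem_insert.1 hxT with rfl | hxT
          · exact absurd hx heS
          · exact hST x hx hxT)
        have hae := ha e
        have hbe := hb e
        have hae' := ha' e
        have hbe' := hb' e
        have h1 := hab e
        have h2 := hab' e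
        by_cases hKe : K e
        · have h3 := hK e hKe
          have e1 : b e = w e - a e := by linarith
          have e2 : b' e = w e - a' e := by linarith
          rw [e1, e2]
          nlinarith [mul_le_mul_of_nonneg_left h10 hae, mul_le_mul_of_nonneg_left h01 hae',
            mul_le_mul_of_nonneg_left h00 (sub_nonneg.2 h3)]
        · have h11 := h (insert e S) (insert e T) (sub2 hS) (sub2 hT) (by
            intro x hx hxT
            rcases Finset.mem_insert.1 hx with rfl | hx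
            · exact hKe
            · rcases Finset.mem_insert.1 hxT with rfl | hxT
              · exact hKe
              · exact hST x hx hxT)
          have m1 : b e * f S + a e * f (insert e S) ≤ w e * max (f S) (f (insert e S)) := by
            rw [← h1]
            nlinarith [mul_le_mul_of_nonneg_left (le_max_left (f S) (f (insert e S))) hbe,
              mul_le_mul_of_nonneg_left (le_max_right (f S) (f (insert e S))) hae]
          have m2 : b' e * g T + a' e * g (insert e T) ≤ w e * max (g T) (g (insert e T)) := by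
            rw [← h2]
            nlinarith [mul_le_mul_of_nonneg_left (le_max_left (g T) (g (insert e T))) hbe',
              mul_le_mul_of_nonneg_left (le_max_right (g T) (g (insert e T))) hae']
          have m3 : max (f S) (f (insert e S)) + max (g T) (g (insert e T)) ≤ 1 := by
            rcases max_choice (f S) (f (insert e S)) with h | h <;>
              rcases max_choice (g T) (g (insert e T)) with h' | h' <;> rw [h, h'] <;> assumption
          nlinarith [mul_le_mul_of_nonneg_left m3 hw]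


section fk

variable {F E : Type*} [Fintype F] [DecidableEq F] [Fintype E] [DecidableEq E]

/-- weights of the edges: even, nonnegative and decreasing in the absolute value -/
structure WOK (w : E → ℤ → ℝ) : Prop where
  nn : ∀ e n, 0 ≤ w e n
  ev : ∀ e n, w e (-n) = w e n
  mono : ∀ e m n, |m| ≤ |n| → w e n ≤ w e m

/-- the part of the weight which is invariant under the reflection of one of the two ends -/
def cc (w : ℤ → ℝ) (m a b : ℤ) : ℝ := w (max |a - b| |a + b - 2 * m - 1|)

theorem cc_flip_left (w : ℤ → ℝ) (m a b : ℤ) : cc w m (2 * m + 1 - a) b = cc w m a b := by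
  unfold cc
  have e1 : |2 * m + 1 - a - b| = |a + b - 2 * m - 1| := by
    rw [← abs_neg]; congr 1; ring
  have e2 : |2 * m + 1 - a + b - 2 * m - 1| = |a - b| := by
    rw [← abs_neg]; congr 1; ring
  rw [e1, e2, max_comm]

theorem cc_flip_right (w : ℤ → ℝ) (m a b : ℤ) : cc w m a (2 * m + 1 - b) = cc w m a b := by
  unfold cc
  have e1 : |a - (2 * m + 1 - b)| = |a + b - 2 * m - 1| := by
    congr 1; ring
  have e2 : |a + (2 * m + 1 - b) - 2 * m - 1| = |a - b| := by
    congr 1; ring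
  rw [e1, e2, max_comm]

theorem cc_le {w : E → ℤ → ℝ} (hw : WOK w) (e : E) (m a b : ℤ) : cc (w e) m a b ≤ w e (a - b) := by
  unfold cc
  refine hw.mono e _ _ ?_
  exact le_trans (le_max_left _ _) (le_abs_self _)

theorem cc_nonneg {w : E → ℤ → ℝ} (hw : WOK w) (e : E) (m a b : ℤ) : 0 ≤ cc (w e) m a b :=
  hw.nn e _

/-- ends on different sides of the level: nothing remains -/
theorem sub_cc_eq_zero {w : E → ℤ → ℝ} (e : E) (m a b : ℤ) (hw : WOK w)
    (h : (a ≤ m ∧ m < b) ∨ (b ≤ m ∧ m < a)) :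
    w e (a - b) - cc (w e) m a b = 0 := by
  unfold cc
  have e1 : max |a - b| |a + b - 2 * m - 1| = |a - b| := by
    apply max_eq_left
    rcases h with ⟨h1, h2⟩ | ⟨h1, h2⟩
    · rw [abs_of_nonpos (by omega : a - b ≤ 0), abs_le]
      constructor <;> omega
    · rw [abs_of_nonneg (by omega : 0 ≤ a - b), abs_le]
      constructor <;> omega
  rw [e1]
  rcases abs_choice (a - b) with h | h
  · rw [h, sub_self]
  · rw [h, hw.ev, sub_self]

/-- weight of a height function -/
def Wt (s t : E → F) (w : E → ℤ → ℝ) (h : F → ℤ) : ℝ := ∏ e, w e (h (s e) - h (t e))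

/-- joint weight of a height function and a set of open edges -/
noncomputable def Ow (s t : E → F) (w : E → ℤ → ℝ) (m : ℤ) (h : F → ℤ) (ω : Finset E) : ℝ :=
  (∏ e ∈ ω, (w e (h (s e) - h (t e)) - cc (w e) m (h (s e)) (h (t e)))) *
    ∏ e ∈ Finset.univ \ ω, cc (w e) m (h (s e)) (h (t e))

theorem sum_Ow (s t : E → F) (w : E → ℤ → ℝ) (m : ℤ) (h : F → ℤ) :
    ∑ ω ∈ (Finset.univ : Finset E).powerset, Ow s t w m h ω = Wt s t w h := by
  unfold Ow Wt
  rw [← Finset.prod_add]
  refine Finset.prod_congr rfl fun e _ => ?_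
  ring

theorem Ow_nonneg {s t : E → F} {w : E → ℤ → ℝ} (hw : WOK w) (m : ℤ) (h : F → ℤ) (ω : Finset E) :
    0 ≤ Ow s t w m h ω := by
  unfold Ow
  refine mul_nonneg (Finset.prod_nonneg fun e _ => ?_) (Finset.prod_nonneg fun e _ => ?_)
  · exact sub_nonneg.2 (cc_le hw e _ _ _)
  · exact cc_nonneg hw e _ _ _

theorem Ow_le {s t : E → F} {w : E → ℤ → ℝ} (hw : WOK w) (m : ℤ) (h : F → ℤ) (ω : Finset E) :
    Ow s t w m h ω ≤ Wt s t w h := by
  rw [← sum_Ow s t w m h]
  exact Finset.single_le_sum (f := fun ω => Ow s t w m h ω) (fun ω _ => Ow_nonneg hw m h ω)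
    (Finset.mem_powerset.2 (Finset.subset_univ ω))

open Classical in
/-- reflection of the heights on a set of vertices -/
noncomputable def flip (m : ℤ) (T : Set F) (h : F → ℤ) : F → ℤ :=
  fun x => if x ∈ T then 2 * m + 1 - h x else h x

theorem flip_flip (m : ℤ) (T : Set F) (h : F → ℤ) :
    flip m T (flip m T h) = h := by
  ext x
  unfold flip
  by_cases hx : x ∈ T
  · simp only [hx, if_true]; ring
  · simp only [hx, if_false]

theorem Ow_flip {s t : E → F} {w : E → ℤ → ℝ} (hw : WOK w) (m : ℤ) (h : F → ℤ) (ω : Finset E)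
    (T : Set F) (hT : ∀ e ∈ ω, (s e ∈ T ↔ t e ∈ T)) :
    Ow s t w m (flip m T h) ω = Ow s t w m h ω := by
  have hc : ∀ e, cc (w e) m (flip m T h (s e)) (flip m T h (t e)) =
      cc (w e) m (h (s e)) (h (t e)) := by
    intro e
    unfold flip
    by_cases h1 : s e ∈ T <;> by_cases h2 : t e ∈ T <;>
      simp only [h1, h2, if_true, if_false, cc_flip_left, cc_flip_right]
  unfold Ow
  congr 1
  · refine Finset.prod_congr rfl fun e he => ?_
    rw [hc e]
    congr 1
    unfold flip
    by_cases h1 : s e ∈ T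
    · have h2 := (hT e he).1 h1
      simp only [h1, h2, if_true]
      rw [← hw.ev]
      congr 1; ring
    · have h2 : t e ∉ T := fun h2 => h1 ((hT e he).2 h2)
      simp only [h1, h2, if_false]
  · exact Finset.prod_congr rfl fun e _ => hc e


/-- height functions vanishing at the base point -/
abbrev Ht (F : Type*) (v0 : F) : Type _ := {h : F → ℤ // h v0 = 0}

/-- `1 + ∑ h²` -/
noncomputable def qq (h : F → ℤ) : ℝ := 1 + ∑ x, (h x : ℝ) ^ 2

theorem one_le_qq (h : F → ℤ) : 1 ≤ qq h := by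
  unfold qq
  have : 0 ≤ ∑ x, (h x : ℝ) ^ 2 := Finset.sum_nonneg fun x _ => sq_nonneg _
  linarith

theorem Wt_nonneg {s t : E → F} {w : E → ℤ → ℝ} (hw : WOK w) (h : F → ℤ) : 0 ≤ Wt s t w h :=
  Finset.prod_nonneg fun e _ => hw.nn e _

theorem summable_Ow {s t : E → F} {w : E → ℤ → ℝ} (hw : WOK w) {v0 : F} (m : ℤ)
    (hsum : Summable fun h : Ht F v0 => Wt s t w h.1 * qq h.1) (ω : Finset E)
    (g : (F → ℤ) → ℝ) (C : ℝ) (hg : ∀ h, |g h| ≤ C * qq h) :
    Summable fun h : Ht F v0 => Ow s t w m h.1 ω * g h.1 := by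
  refine Summable.of_norm_bounded (g := fun h : Ht F v0 => C * (Wt s t w h.1 * qq h.1))
    (hsum.mul_left C) fun h => ?_
  rw [Real.norm_eq_abs, abs_mul, abs_of_nonneg (Ow_nonneg hw m h.1 ω)]
  calc Ow s t w m h.1 ω * |g h.1| ≤ Wt s t w h.1 * (C * qq h.1) :=
        mul_le_mul (Ow_le hw m h.1 ω) (hg h.1) (abs_nonneg _) (Wt_nonneg hw h.1)
    _ = _ := by ring

theorem summable_Wt {s t : E → F} {w : E → ℤ → ℝ} (hw : WOK w) {v0 : F}
    (hsum : Summable fun h : Ht F v0 => Wt s t w h.1 * qq h.1)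
    (g : (F → ℤ) → ℝ) (C : ℝ) (hg : ∀ h, |g h| ≤ C * qq h) :
    Summable fun h : Ht F v0 => Wt s t w h.1 * g h.1 := by
  refine Summable.of_norm_bounded (g := fun h : Ht F v0 => C * (Wt s t w h.1 * qq h.1))
    (hsum.mul_left C) fun h => ?_
  rw [Real.norm_eq_abs, abs_mul, abs_of_nonneg (Wt_nonneg hw h.1)]
  calc Wt s t w h.1 * |g h.1| ≤ Wt s t w h.1 * (C * qq h.1) :=
        mul_le_mul_of_nonneg_left (hg h.1) (Wt_nonneg hw h.1)
    _ = _ := by ring

/-- products of two affine functions of the heights are bounded by `qq` -/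
theorem mul_aff_le (a b : F → ℝ) (c : ℝ) :
    ∃ C : ℝ, ∀ h : F → ℤ, |(∑ x, a x * ((h x : ℝ) - c)) * (∑ x, b x * ((h x : ℝ) - c))| ≤
      C * qq h := by
  set A : ℝ := ∑ x, |a x| * (1 + |c|) with hA
  set B : ℝ := ∑ x, |b x| * (1 + |c|) with hB
  have hc0 := abs_nonneg c
  have key : ∀ (a : F → ℝ) (h : F → ℤ), |∑ x, a x * ((h x : ℝ) - c)| ≤
      (∑ x, |a x| * (1 + |c|)) * Real.sqrt (qq h) := by
    intro a h
    have hq := one_le_qq h
    have hsq : 1 ≤ Real.sqrt (qq h) := by
      rw [show (1 : ℝ) = Real.sqrt 1 by simp]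
      exact Real.sqrt_le_sqrt hq
    calc |∑ x, a x * ((h x : ℝ) - c)| ≤ ∑ x, |a x * ((h x : ℝ) - c)| :=
          Finset.abs_sum_le_sum_abs _ _
      _ ≤ ∑ x, |a x| * (1 + |c|) * Real.sqrt (qq h) := by
          refine Finset.sum_le_sum fun x _ => ?_
          rw [abs_mul, mul_assoc]
          refine mul_le_mul_of_nonneg_left ?_ (abs_nonneg _)
          have h1 : |(h x : ℝ)| ≤ Real.sqrt (qq h) := by
            rw [← Real.sqrt_sq_eq_abs]
            apply Real.sqrt_le_sqrt
            unfold qq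
            have : (h x : ℝ) ^ 2 ≤ ∑ x, (h x : ℝ) ^ 2 :=
              Finset.single_le_sum (f := fun x => (h x : ℝ) ^ 2) (fun x _ => sq_nonneg _)
                (Finset.mem_univ x)
            linarith
          calc |(h x : ℝ) - c| ≤ |(h x : ℝ)| + |c| := abs_sub _ _
            _ ≤ Real.sqrt (qq h) + |c| * Real.sqrt (qq h) := by
                refine add_le_add h1 ?_
                exact le_mul_of_one_le_right hc0 hsq
            _ = _ := by ring
      _ = _ := by rw [Finset.sum_mul]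
  refine ⟨A * B, fun h => ?_⟩
  rw [abs_mul]
  have hq : 0 ≤ qq h := le_trans zero_le_one (one_le_qq h)
  calc |∑ x, a x * ((h x : ℝ) - c)| * |∑ x, b x * ((h x : ℝ) - c)|
      ≤ (A * Real.sqrt (qq h)) * (B * Real.sqrt (qq h)) := by
        refine mul_le_mul (key a h) (key b h) (abs_nonneg _) ?_
        exact le_trans (abs_nonneg _) (key a h)
    _ = A * B * (Real.sqrt (qq h) * Real.sqrt (qq h)) := by ring
    _ = A * B * qq h := by rw [Real.mul_self_sqrt hq]


open Classical in
/-- the reflection on a union of clusters which misses the base point -/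
noncomputable def flipEquiv (m : ℤ) (T : Set F) {v0 : F} (hT : v0 ∉ T) : Ht F v0 ≃ Ht F v0 where
  toFun h := ⟨flip m T h.1, by unfold flip; simp only [hT, if_false]; exact h.2⟩
  invFun h := ⟨flip m T h.1, by unfold flip; simp only [hT, if_false]; exact h.2⟩
  left_inv h := Subtype.ext (flip_flip m T h.1)
  right_inv h := Subtype.ext (flip_flip m T h.1)

open Classical in
theorem tsum_flip {s t : E → F} {w : E → ℤ → ℝ} (hw : WOK w) {v0 : F} (m : ℤ)
    (ω : Finset E) (T : Set F) (hT : ∀ e ∈ ω, (s e ∈ T ↔ t e ∈ T)) (N R : (F → ℤ) → ℝ)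
    (h1 : ∀ h, N (flip m T h) = N h) (h2 : ∀ h, R (flip m T h) = - R h)
    (h3 : ∀ h, N (flip m Tᶜ h) = - N h) (h4 : ∀ h, R (flip m Tᶜ h) = R h) :
    ∑' h : Ht F v0, Ow s t w m h.1 ω * (N h.1 * R h.1) = 0 := by
  have key : ∃ T' : Set F, v0 ∉ T' ∧ (∀ e ∈ ω, (s e ∈ T' ↔ t e ∈ T')) ∧
      ∀ h, N (flip m T' h) * R (flip m T' h) = - (N h * R h) := by
    by_cases hv : v0 ∈ T
    · refine ⟨Tᶜ, fun h => h hv, fun e he => not_congr (hT e he), fun h => ?_⟩
      rw [h3, h4]; ring
    · exact ⟨T, hv, hT, fun h => by rw [h1, h2]; ring⟩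
  obtain ⟨T', hv, hT', hN⟩ := key
  have e1 : ∑' h : Ht F v0, Ow s t w m h.1 ω * (N h.1 * R h.1) =
      ∑' h : Ht F v0, Ow s t w m (flipEquiv m T' hv h).1 ω *
        (N (flipEquiv m T' hv h).1 * R (flipEquiv m T' hv h).1) :=
    ((flipEquiv m T' hv).tsum_eq
      (fun h : Ht F v0 => Ow s t w m h.1 ω * (N h.1 * R h.1))).symm
  have e2 : ∀ h : Ht F v0, Ow s t w m (flipEquiv m T' hv h).1 ω *
        (N (flipEquiv m T' hv h).1 * R (flipEquiv m T' hv h).1) =
      - (Ow s t w m h.1 ω * (N h.1 * R h.1)) := by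
    intro h
    have : (flipEquiv m T' hv h).1 = flip m T' h.1 := rfl
    rw [this, Ow_flip hw m h.1 ω T' hT', hN]
    ring
  simp only [e2, tsum_neg] at e1
  linarith

open Classical in
/-- restriction to the complement of a set -/
noncomputable def offT (T : Set F) (a : F → ℝ) (x : F) : ℝ := if x ∈ T then 0 else a x

open Classical in
/-- restriction to a set -/
noncomputable def onT (T : Set F) (a : F → ℝ) (x : F) : ℝ := if x ∈ T then a x else 0

theorem offT_mem {T : Set F} {x : F} (a : F → ℝ) (h : x ∈ T) : offT T a x = 0 := by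
  unfold offT; exact if_pos h

theorem offT_not {T : Set F} {x : F} (a : F → ℝ) (h : x ∉ T) : offT T a x = a x := by
  unfold offT; exact if_neg h

theorem onT_mem {T : Set F} {x : F} (a : F → ℝ) (h : x ∈ T) : onT T a x = a x := by
  unfold onT; exact if_pos h

theorem onT_not {T : Set F} {x : F} (a : F → ℝ) (h : x ∉ T) : onT T a x = 0 := by
  unfold onT; exact if_neg h

/-- the part of the average which is not connected to the target is small -/
theorem tsum_N_le {s t : E → F} {w : E → ℤ → ℝ} (hw : WOK w) {v0 : F} (m : ℤ)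
    (hsum : Summable fun h : Ht F v0 => Wt s t w h.1 * qq h.1) (ω : Finset E)
    (α β : F → ℝ) (hα : ∑ x, α x = 1) (hβ : ∑ x, β x = 1)
    (T : Set F) (hT : ∀ e ∈ ω, (s e ∈ T ↔ t e ∈ T)) (hβT : ∀ x, β x ≠ 0 → x ∈ T) :
    ∑' h : Ht F v0, Ow s t w m h.1 ω *
        (∑ x, offT T α x * ((h.1 x : ℝ) - (m + 1 / 2))) ^ 2 ≤
      ∑' h : Ht F v0, Ow s t w m h.1 ω *
        (∑ x, α x * (h.1 x : ℝ) - ∑ x, β x * (h.1 x : ℝ)) ^ 2 := by
  set N : (F → ℤ) → ℝ := fun h =>
    ∑ x, offT T α x * ((h x : ℝ) - (m + 1 / 2)) with hN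
  set R : (F → ℤ) → ℝ := fun h =>
    ∑ x, onT T (fun x => α x - β x) x * ((h x : ℝ) - (m + 1 / 2)) with hR
  have hD : ∀ h : F → ℤ, ∑ x, α x * (h x : ℝ) - ∑ x, β x * (h x : ℝ) = N h + R h := by
    intro h
    have e1 : N h + R h = ∑ x, (α x - β x) * ((h x : ℝ) - (m + 1 / 2)) := by
      rw [hN, hR]
      simp only
      rw [← Finset.sum_add_distrib]
      refine Finset.sum_congr rfl fun x _ => ?_
      by_cases hx : x ∈ T
      · rw [offT_mem _ hx, onT_mem _ hx]; ring
      · have hb : β x = 0 := by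
          by_contra h'
          exact hx (hβT x h')
        rw [offT_not _ hx, onT_not _ hx, hb]; ring
    rw [e1]
    have e2 : ∀ x, (α x - β x) * ((h x : ℝ) - (m + 1 / 2)) =
        α x * (h x : ℝ) - β x * (h x : ℝ) - (m + 1 / 2) * α x + (m + 1 / 2) * β x := by
      intro x; ring
    simp only [e2, Finset.sum_add_distrib, Finset.sum_sub_distrib, ← Finset.mul_sum, hα, hβ]
    ring
  have f1 : ∀ h, N (flip m T h) = N h := by
    intro h
    refine Finset.sum_congr rfl fun x _ => ?_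
    by_cases hx : x ∈ T
    · rw [offT_mem _ hx, zero_mul, zero_mul]
    · simp only [flip, hx, if_false]
  have f2 : ∀ h, R (flip m T h) = - R h := by
    intro h
    rw [hR]
    simp only
    rw [← Finset.sum_neg_distrib]
    refine Finset.sum_congr rfl fun x _ => ?_
    by_cases hx : x ∈ T
    · simp only [flip, hx, if_true]; push_cast; ring
    · rw [onT_not _ hx, zero_mul, zero_mul, neg_zero]
  have f3 : ∀ h, N (flip m Tᶜ h) = - N h := by
    intro h
    rw [hN]
    simp only
    rw [← Finset.sum_neg_distrib]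
    refine Finset.sum_congr rfl fun x _ => ?_
    by_cases hx : x ∈ T
    · rw [offT_mem _ hx, zero_mul, zero_mul, neg_zero]
    · simp only [flip, Set.mem_compl_iff, hx, not_false_eq_true, if_true]
      push_cast; ring
  have f4 : ∀ h, R (flip m Tᶜ h) = R h := by
    intro h
    refine Finset.sum_congr rfl fun x _ => ?_
    by_cases hx : x ∈ T
    · simp only [flip, Set.mem_compl_iff, hx, not_true_eq_false, if_false]
    · rw [onT_not _ hx, zero_mul, zero_mul]
  have h0 := tsum_flip (v0 := v0) hw m ω T hT N R f1 f2 f3 f4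
  obtain ⟨C1, hC1⟩ := mul_aff_le (offT T α)
    (offT T α) ((m : ℝ) + 1 / 2)
  obtain ⟨C2, hC2⟩ := mul_aff_le (offT T α)
    (onT T fun x => α x - β x) ((m : ℝ) + 1 / 2)
  obtain ⟨C3, hC3⟩ := mul_aff_le (onT T fun x => α x - β x)
    (onT T fun x => α x - β x) ((m : ℝ) + 1 / 2)
  have s1 : Summable fun h : Ht F v0 => Ow s t w m h.1 ω * (N h.1 * N h.1) :=
    summable_Ow hw m hsum ω (fun h => N h * N h) C1 hC1
  have s2 : Summable fun h : Ht F v0 => Ow s t w m h.1 ω * (N h.1 * R h.1) :=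
    summable_Ow hw m hsum ω (fun h => N h * R h) C2 hC2
  have s3 : Summable fun h : Ht F v0 => Ow s t w m h.1 ω * (R h.1 * R h.1) :=
    summable_Ow hw m hsum ω (fun h => R h * R h) C3 hC3
  have e1 : ∀ h : Ht F v0, Ow s t w m h.1 ω *
        (∑ x, α x * (h.1 x : ℝ) - ∑ x, β x * (h.1 x : ℝ)) ^ 2 =
      Ow s t w m h.1 ω * (N h.1 * N h.1) + 2 * (Ow s t w m h.1 ω * (N h.1 * R h.1)) +
        Ow s t w m h.1 ω * (R h.1 * R h.1) := by
    intro h; rw [hD]; ring
  have e2 : ∀ h : Ht F v0, Ow s t w m h.1 ω *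
        (∑ x, offT T α x * ((h.1 x : ℝ) - (m + 1 / 2))) ^ 2 =
      Ow s t w m h.1 ω * (N h.1 * N h.1) := by
    intro h; rw [hN]; ring
  rw [tsum_congr e1, tsum_congr e2, (s1.add (s2.mul_left 2)).tsum_add s3,
    s1.tsum_add (s2.mul_left 2), tsum_mul_left, h0]
  have : 0 ≤ ∑' h : Ht F v0, Ow s t w m h.1 ω * (R h.1 * R h.1) :=
    tsum_nonneg fun h => mul_nonneg (Ow_nonneg hw m h.1 ω) (mul_self_nonneg _)
  linarith


/-- the sets `α ≠ 0` and `β ≠ 0` are connected by `S` -/
def Cr (s t : E → F) (α β : F → ℝ) (S : Finset E) : Prop :=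
  ∃ x y, α x ≠ 0 ∧ β y ≠ 0 ∧ Conn s t S x y

/-- open edges with both ends below the level -/
def lowE (s t : E → F) (m : ℤ) (h : F → ℤ) (ω : Finset E) : Finset E :=
  ω.filter fun e => h (s e) ≤ m ∧ h (t e) ≤ m

/-- open edges with both ends above the level -/
def highE (s t : E → F) (m : ℤ) (h : F → ℤ) (ω : Finset E) : Finset E :=
  ω.filter fun e => m ≤ h (s e) ∧ m ≤ h (t e)

/-- indicator -/
noncomputable def ind (p : Prop) : ℝ := by
  classical exact if p then 1 else 0

theorem ind_true {p : Prop} (h : p) : ind p = 1 := by unfold ind; exact if_pos h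

theorem ind_false {p : Prop} (h : ¬ p) : ind p = 0 := by unfold ind; exact if_neg h

theorem ind_nonneg (p : Prop) : 0 ≤ ind p := by
  by_cases h : p
  · rw [ind_true h]; exact zero_le_one
  · rw [ind_false h]

theorem ind_le_one (p : Prop) : ind p ≤ 1 := by
  by_cases h : p
  · rw [ind_true h]
  · rw [ind_false h]; exact zero_le_one

theorem ind_congr {p q : Prop} (h : p ↔ q) : ind p = ind q := by
  rw [propext h]

/-- a path of open edges which starts below the level stays below the level -/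
theorem conn_low {s t : E → F} {w : E → ℤ → ℝ} (hw : WOK w) (m : ℤ) (h : F → ℤ) (ω : Finset E)
    (hO : Ow s t w m h ω ≠ 0) {x y : F} (hxy : Conn s t ω x y) (hx : h x ≤ m) :
    h y ≤ m ∧ Conn s t (lowE s t m h ω) x y := by
  unfold Ow at hO
  have hO' : ∀ e ∈ ω, w e (h (s e) - h (t e)) - cc (w e) m (h (s e)) (h (t e)) ≠ 0 := by
    intro e he h0
    exact hO (by rw [Finset.prod_eq_zero he h0, zero_mul])
  have side : ∀ e ∈ ω, (h (s e) ≤ m ↔ h (t e) ≤ m) := by
    intro e he
    constructor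
    · intro h1
      by_contra h2
      exact hO' e he (sub_cc_eq_zero e m _ _ hw (Or.inl ⟨h1, not_le.1 h2⟩))
    · intro h1
      by_contra h2
      exact hO' e he (sub_cc_eq_zero e m _ _ hw (Or.inr ⟨h1, not_le.1 h2⟩))
  unfold Conn at hxy ⊢
  induction hxy with
  | refl => exact ⟨hx, Relation.ReflTransGen.refl⟩
  | tail hab hbc ih =>
    rename_i b c
    obtain ⟨e, he, hbe⟩ := hbc
    rcases hbe with ⟨h1, h2⟩ | ⟨h1, h2⟩
    · have hb : h (s e) ≤ m := by rw [h1]; exact ih.1
      have hc : h (t e) ≤ m := (side e he).1 hb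
      exact ⟨by rw [← h2]; exact hc, ih.2.tail
        ⟨e, Finset.mem_filter.2 ⟨he, hb, hc⟩, Or.inl ⟨h1, h2⟩⟩⟩
    · have hb : h (t e) ≤ m := by rw [h2]; exact ih.1
      have hc : h (s e) ≤ m := (side e he).2 hb
      exact ⟨by rw [← h1]; exact hc, ih.2.tail
        ⟨e, Finset.mem_filter.2 ⟨he, hc, hb⟩, Or.inr ⟨h1, h2⟩⟩⟩

theorem level_omega {s t : E → F} {w : E → ℤ → ℝ} (hw : WOK w) {v0 : F} (m : ℤ)
    (hsum : Summable fun h : Ht F v0 => Wt s t w h.1 * qq h.1) (ω : Finset E)
    (α β : F → ℝ) (hα0 : ∀ x, 0 ≤ α x) (hα : ∑ x, α x = 1) (hβ : ∑ x, β x = 1)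
    (d : ℝ) (hd : 0 < d) :
    ∑' h : Ht F v0, Ow s t w m h.1 ω * ind (∑ x, α x * (h.1 x : ℝ) < m + 1 / 2 - d) ≤
      ∑' h : Ht F v0, Ow s t w m h.1 ω *
          ind (Cr s t α β (lowE s t m h.1 ω)) +
        (d ^ 2)⁻¹ * ∑' h : Ht F v0, Ow s t w m h.1 ω *
          (∑ x, α x * (h.1 x : ℝ) - ∑ x, β x * (h.1 x : ℝ)) ^ 2 := by
  set T : Set F := {x | ∃ y, β y ≠ 0 ∧ Conn s t ω x y} with hTdef
  have hT : ∀ e ∈ ω, (s e ∈ T ↔ t e ∈ T) := by
    intro e he
    constructor
    · rintro ⟨y, hy, hc⟩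
      exact ⟨y, hy, Relation.ReflTransGen.head ⟨e, he, Or.inr ⟨rfl, rfl⟩⟩ hc⟩
    · rintro ⟨y, hy, hc⟩
      exact ⟨y, hy, Relation.ReflTransGen.head ⟨e, he, Or.inl ⟨rfl, rfl⟩⟩ hc⟩
  have hβT : ∀ x, β x ≠ 0 → x ∈ T := fun x hx => ⟨x, hx, Relation.ReflTransGen.refl⟩
  have h1 := tsum_N_le hw m hsum ω α β hα hβ T hT hβT
  have hd2 : 0 < (d ^ 2)⁻¹ := by positivity
  refine le_trans ?_ (add_le_add_right (mul_le_mul_of_nonneg_left h1 hd2.le) _)
  obtain ⟨C1, hC1⟩ := mul_aff_le (offT T α)
    (offT T α) ((m : ℝ) + 1 / 2)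
  have s1 : Summable fun h : Ht F v0 => Ow s t w m h.1 ω *
      (∑ x, offT T α x * ((h.1 x : ℝ) - (m + 1 / 2))) ^ 2 :=
    summable_Ow hw m hsum ω (fun h =>
      (∑ x, offT T α x * ((h x : ℝ) - (m + 1 / 2))) ^ 2) C1
      (fun h => by rw [sq]; exact hC1 h)
  have s2 : Summable fun h : Ht F v0 => Ow s t w m h.1 ω *
      ind (Cr s t α β (lowE s t m h.1 ω)) :=
    summable_Ow hw m hsum ω (fun h =>
      ind (Cr s t α β (lowE s t m h ω))) 1
      (fun h => by
        rw [abs_of_nonneg (ind_nonneg _), one_mul]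
        exact le_trans (ind_le_one _) (one_le_qq h))
  have s3 : Summable fun h : Ht F v0 => Ow s t w m h.1 ω *
      ind (∑ x, α x * (h.1 x : ℝ) < m + 1 / 2 - d) :=
    summable_Ow hw m hsum ω (fun h =>
      ind (∑ x, α x * (h x : ℝ) < m + 1 / 2 - d)) 1
      (fun h => by
        rw [abs_of_nonneg (ind_nonneg _), one_mul]
        exact le_trans (ind_le_one _) (one_le_qq h))
  rw [← tsum_mul_left, ← s2.tsum_add (s1.mul_left _)]
  refine s3.tsum_le_tsum (fun h => ?_) (s2.add (s1.mul_left _))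
  set N : ℝ := ∑ x, offT T α x * ((h.1 x : ℝ) - (m + 1 / 2)) with hN
  have hO := Ow_nonneg (s := s) (t := t) hw m h.1 ω
  by_cases hO0 : Ow s t w m h.1 ω = 0
  · rw [hO0]; simp
  have hnn : 0 ≤ (d ^ 2)⁻¹ * (Ow s t w m h.1 ω * N ^ 2) := by positivity
  by_cases hC : Cr s t α β (lowE s t m h.1 ω)
  · rw [ind_true hC]
    have : Ow s t w m h.1 ω * ind (∑ x, α x * (h.1 x : ℝ) < m + 1 / 2 - d) ≤
        Ow s t w m h.1 ω * 1 := mul_le_mul_of_nonneg_left (ind_le_one _) hO
    linarith
  · rw [ind_false hC]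
    by_cases hI : ∑ x, α x * (h.1 x : ℝ) < m + 1 / 2 - d
    · rw [ind_true hI]
      have hpos : ∀ x, 0 ≤ onT T α x * ((h.1 x : ℝ) - (m + 1 / 2)) := by
        intro x
        by_cases hx : x ∈ T
        · rw [onT_mem _ hx]
          by_cases hax : α x = 0
          · rw [hax, zero_mul]
          · refine mul_nonneg (hα0 x) ?_
            obtain ⟨y, hy, hc⟩ := hx
            by_contra hneg
            have hlt : (h.1 x : ℝ) < m + 1 / 2 := by linarith
            have hle : h.1 x ≤ m := by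
              by_contra h2
              have h3 : m + 1 ≤ h.1 x := by omega
              have h4 : ((m : ℝ) + 1) ≤ (h.1 x : ℝ) := by exact_mod_cast h3
              linarith
            exact hC ⟨x, y, hax, hy, (conn_low hw m h.1 ω hO0 hc hle).2⟩
        · rw [onT_not _ hx, zero_mul]
      have hsplit : ∑ x, α x * (h.1 x : ℝ) - (m + 1 / 2) = N +
          ∑ x, onT T α x * ((h.1 x : ℝ) - (m + 1 / 2)) := by
        rw [hN, ← Finset.sum_add_distrib]
        have : ∀ x, offT T α x * ((h.1 x : ℝ) - (m + 1 / 2)) +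
            onT T α x * ((h.1 x : ℝ) - (m + 1 / 2)) =
            α x * (h.1 x : ℝ) - (m + 1 / 2) * α x := by
          intro x
          by_cases hx : x ∈ T
          · rw [offT_mem _ hx, onT_mem _ hx]; ring
          · rw [offT_not _ hx, onT_not _ hx]; ring
        simp only [this, Finset.sum_sub_distrib, ← Finset.mul_sum, hα, mul_one]
      have hNd : N < -d := by
        have := Finset.sum_nonneg (s := Finset.univ) fun x _ => hpos x
        linarith
      have hN2 : d ^ 2 ≤ N ^ 2 := by nlinarith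
      have : 1 ≤ (d ^ 2)⁻¹ * N ^ 2 := by
        rw [inv_mul_eq_div, one_le_div (by positivity)]
        exact hN2
      calc Ow s t w m h.1 ω * 1 ≤ Ow s t w m h.1 ω * ((d ^ 2)⁻¹ * N ^ 2) :=
            mul_le_mul_of_nonneg_left this hO
        _ = _ := by ring
    · rw [ind_false hI]
      linarith


/-- below the level: the average is small only if there is a crossing below the level -/
theorem level {s t : E → F} {w : E → ℤ → ℝ} (hw : WOK w) {v0 : F} (m : ℤ)
    (hsum : Summable fun h : Ht F v0 => Wt s t w h.1 * qq h.1)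
    (α β : F → ℝ) (hα0 : ∀ x, 0 ≤ α x) (hα : ∑ x, α x = 1) (hβ : ∑ x, β x = 1)
    (d : ℝ) (hd : 0 < d) :
    ∑' h : Ht F v0, Wt s t w h.1 * ind (∑ x, α x * (h.1 x : ℝ) < m + 1 / 2 - d) ≤
      ∑' h : Ht F v0, ∑ ω ∈ (Finset.univ : Finset E).powerset, Ow s t w m h.1 ω *
          ind (Cr s t α β (lowE s t m h.1 ω)) +
        (d ^ 2)⁻¹ * ∑' h : Ht F v0, Wt s t w h.1 *
          (∑ x, α x * (h.1 x : ℝ) - ∑ x, β x * (h.1 x : ℝ)) ^ 2 := by
  obtain ⟨C, hC⟩ := mul_aff_le (fun x => α x - β x) (fun x => α x - β x) 0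
  have s2 : ∀ ω : Finset E, Summable fun h : Ht F v0 => Ow s t w m h.1 ω *
      ind (Cr s t α β (lowE s t m h.1 ω)) := fun ω =>
    summable_Ow hw m hsum ω (fun h =>
      ind (Cr s t α β (lowE s t m h ω))) 1
      (fun h => by
        rw [abs_of_nonneg (ind_nonneg _), one_mul]
        exact le_trans (ind_le_one _) (one_le_qq h))
  have s3 : ∀ ω : Finset E, Summable fun h : Ht F v0 => Ow s t w m h.1 ω *
      ind (∑ x, α x * (h.1 x : ℝ) < m + 1 / 2 - d) := fun ω =>
    summable_Ow hw m hsum ω (fun h =>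
      ind (∑ x, α x * (h x : ℝ) < m + 1 / 2 - d)) 1
      (fun h => by
        rw [abs_of_nonneg (ind_nonneg _), one_mul]
        exact le_trans (ind_le_one _) (one_le_qq h))
  have s4 : ∀ ω : Finset E, Summable fun h : Ht F v0 => Ow s t w m h.1 ω *
      (∑ x, α x * (h.1 x : ℝ) - ∑ x, β x * (h.1 x : ℝ)) ^ 2 := fun ω =>
    summable_Ow hw m hsum ω (fun h =>
      (∑ x, α x * (h x : ℝ) - ∑ x, β x * (h x : ℝ)) ^ 2) C
      (fun h => by
        have := hC h
        rw [sq]
        convert this using 3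
        · rw [← Finset.sum_sub_distrib]
          exact Finset.sum_congr rfl fun x _ => by ring
        · rw [← Finset.sum_sub_distrib]
          exact Finset.sum_congr rfl fun x _ => by ring)
  have h1 : ∑ ω ∈ (Finset.univ : Finset E).powerset, ∑' h : Ht F v0, Ow s t w m h.1 ω *
        ind (∑ x, α x * (h.1 x : ℝ) < m + 1 / 2 - d) ≤
      ∑ ω ∈ (Finset.univ : Finset E).powerset, (∑' h : Ht F v0, Ow s t w m h.1 ω *
          ind (Cr s t α β (lowE s t m h.1 ω)) +
        (d ^ 2)⁻¹ * ∑' h : Ht F v0, Ow s t w m h.1 ω *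
          (∑ x, α x * (h.1 x : ℝ) - ∑ x, β x * (h.1 x : ℝ)) ^ 2) :=
    Finset.sum_le_sum fun ω _ => level_omega hw m hsum ω α β hα0 hα hβ d hd
  rw [Finset.sum_add_distrib, ← Finset.mul_sum, ← Summable.tsum_finsetSum fun ω _ => s2 ω,
    ← Summable.tsum_finsetSum fun ω _ => s3 ω, ← Summable.tsum_finsetSum fun ω _ => s4 ω] at h1
  have e1 : ∀ (h : Ht F v0) (c : ℝ), ∑ ω ∈ (Finset.univ : Finset E).powerset,
      Ow s t w m h.1 ω * c = Wt s t w h.1 * c := by
    intro h c
    rw [← Finset.sum_mul, sum_Ow]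
  simp only [e1] at h1
  exact h1

/-- heights with the sign changed -/
def negEquiv {v0 : F} : Ht F v0 ≃ Ht F v0 where
  toFun h := ⟨fun x => - h.1 x, by simp [h.2]⟩
  invFun h := ⟨fun x => - h.1 x, by simp [h.2]⟩
  left_inv h := Subtype.ext (by ext x; simp)
  right_inv h := Subtype.ext (by ext x; simp)

theorem Wt_neg {s t : E → F} {w : E → ℤ → ℝ} (hw : WOK w) (h : F → ℤ) :
    Wt s t w (fun x => - h x) = Wt s t w h := by
  unfold Wt
  refine Finset.prod_congr rfl fun e _ => ?_
  rw [← hw.ev]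
  congr 1
  ring

theorem cc_neg (w : ℤ → ℝ) (m a b : ℤ) : cc w (-m) (-a) (-b) = cc w (m - 1) a b := by
  unfold cc
  have e1 : |-a - -b| = |a - b| := by
    rw [← abs_neg]; congr 1; ring
  have e2 : |-a + -b - 2 * -m - 1| = |a + b - 2 * (m - 1) - 1| := by
    rw [← abs_neg]; congr 1; ring
  rw [e1, e2]

theorem Ow_neg {s t : E → F} {w : E → ℤ → ℝ} (hw : WOK w) (m : ℤ) (h : F → ℤ) (ω : Finset E) :
    Ow s t w (-m) (fun x => - h x) ω = Ow s t w (m - 1) h ω := by
  unfold Ow
  simp only [cc_neg]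
  congr 1
  refine Finset.prod_congr rfl fun e _ => ?_
  congr 1
  rw [← hw.ev]
  congr 1
  ring

theorem lowE_neg (s t : E → F) (m : ℤ) (h : F → ℤ) (ω : Finset E) :
    lowE s t (-m) (fun x => - h x) ω = highE s t m h ω := by
  unfold lowE highE
  refine Finset.filter_congr fun e _ => ?_
  simp only [neg_le_neg_iff]

/-- above the level -/
theorem level' {s t : E → F} {w : E → ℤ → ℝ} (hw : WOK w) {v0 : F} (m : ℤ)
    (hsum : Summable fun h : Ht F v0 => Wt s t w h.1 * qq h.1)
    (α β : F → ℝ) (hα0 : ∀ x, 0 ≤ α x) (hα : ∑ x, α x = 1) (hβ : ∑ x, β x = 1)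
    (d : ℝ) (hd : 0 < d) :
    ∑' h : Ht F v0, Wt s t w h.1 * ind (m - 1 / 2 + d < ∑ x, α x * (h.1 x : ℝ)) ≤
      ∑' h : Ht F v0, ∑ ω ∈ (Finset.univ : Finset E).powerset, Ow s t w (m - 1) h.1 ω *
          ind (Cr s t α β (highE s t m h.1 ω)) +
        (d ^ 2)⁻¹ * ∑' h : Ht F v0, Wt s t w h.1 *
          (∑ x, α x * (h.1 x : ℝ) - ∑ x, β x * (h.1 x : ℝ)) ^ 2 := by
  have h1 := level hw (-m) hsum α β hα0 hα hβ d hd
  have e1 : ∑' h : Ht F v0, Wt s t w h.1 * ind (∑ x, α x * (h.1 x : ℝ) < ((-m : ℤ) : ℝ) + 1 / 2 - d)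
      = ∑' h : Ht F v0, Wt s t w h.1 * ind (m - 1 / 2 + d < ∑ x, α x * (h.1 x : ℝ)) := by
    rw [← (negEquiv (v0 := v0)).tsum_eq]
    refine tsum_congr fun h => ?_
    have e0 : (negEquiv h).1 = fun x => - h.1 x := rfl
    rw [e0, Wt_neg hw]
    congr 1
    apply ind_congr
    push_cast
    simp only [mul_neg, Finset.sum_neg_distrib]
    constructor
    · intro h; linarith
    · intro h; linarith
  have e2 : ∑' h : Ht F v0, ∑ ω ∈ (Finset.univ : Finset E).powerset, Ow s t w (-m) h.1 ω *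
          ind (Cr s t α β (lowE s t (-m) h.1 ω)) =
      ∑' h : Ht F v0, ∑ ω ∈ (Finset.univ : Finset E).powerset, Ow s t w (m - 1) h.1 ω *
          ind (Cr s t α β (highE s t m h.1 ω)) := by
    rw [← (negEquiv (v0 := v0)).tsum_eq]
    refine tsum_congr fun h => ?_
    have e0 : (negEquiv h).1 = fun x => - h.1 x := rfl
    refine Finset.sum_congr rfl fun ω _ => ?_
    rw [e0, Ow_neg hw, lowE_neg]
  rw [e1, e2] at h1
  exact h1

/-- a crossing below the level and a crossing above the level exclude each other -/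
theorem coupling_levels {s t : E → F} {w : E → ℤ → ℝ} (hw : WOK w)
    (hhalf : ∀ e, w e 0 ≤ 2 * w e 1) (α β α' β' : F → ℝ)
    (hcross : ∀ S T : Finset E, Disjoint S T → Cr s t α β S → Cr s t α' β' T → False)
    (m : ℤ) (h : F → ℤ) :
    ∑ ω ∈ (Finset.univ : Finset E).powerset, Ow s t w m h ω *
        ind (Cr s t α β (lowE s t m h ω)) +
      ∑ ω ∈ (Finset.univ : Finset E).powerset, Ow s t w (m - 1) h ω *
        ind (Cr s t α' β' (highE s t m h ω)) ≤ Wt s t w h := by
  have h1 := coupling (Finset.univ : Finset E)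
    (fun e => w e (h (s e) - h (t e)) - cc (w e) m (h (s e)) (h (t e)))
    (fun e => cc (w e) m (h (s e)) (h (t e)))
    (fun e => w e (h (s e) - h (t e)) - cc (w e) (m - 1) (h (s e)) (h (t e)))
    (fun e => cc (w e) (m - 1) (h (s e)) (h (t e)))
    (fun e => w e (h (s e) - h (t e)))
    (fun e => (h (s e) ≤ m ∧ h (t e) ≤ m) ∧ (m ≤ h (s e) ∧ m ≤ h (t e)))
    (fun e => sub_nonneg.2 (cc_le hw e _ _ _)) (fun e => cc_nonneg hw e _ _ _)
    (fun e => sub_nonneg.2 (cc_le hw e _ _ _)) (fun e => cc_nonneg hw e _ _ _)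
    (fun e => by ring) (fun e => by ring) ?_
    (fun ω => ind (Cr s t α β (lowE s t m h ω)))
    (fun ω => ind (Cr s t α' β' (highE s t m h ω))) ?_
  · unfold Wt Ow
    convert h1 using 1
  · rintro e ⟨⟨h1, h2⟩, h3, h4⟩
    have e1 : h (s e) = m := le_antisymm h1 h3
    have e2 : h (t e) = m := le_antisymm h2 h4
    simp only [e1, e2, cc, sub_self]
    have e3 : max |(0 : ℤ)| |m + m - 2 * m - 1| = 1 := by
      have : m + m - 2 * m - 1 = -1 := by ring
      rw [this]; simp
    have e4 : max |(0 : ℤ)| |m + m - 2 * (m - 1) - 1| = 1 := by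
      have : m + m - 2 * (m - 1) - 1 = 1 := by ring
      rw [this]; simp
    rw [e3, e4]
    linarith [hhalf e]
  · intro S T _ _ hST
    by_cases hS : Cr s t α β (lowE s t m h S)
    · have hT : ¬ Cr s t α' β' (highE s t m h T) := by
        intro hT
        refine hcross _ _ ?_ hS hT
        rw [Finset.disjoint_left]
        intro e he he'
        unfold lowE at he
        unfold highE at he'
        rw [Finset.mem_filter] at he he'
        exact hST e he.1 he'.1 ⟨he.2, he'.2⟩
      rw [ind_false hT, add_zero]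
      exact ind_le_one _
    · rw [ind_false hS, zero_add]
      exact ind_le_one _

/-- the two level inequality -/
theorem fk_two_level {s t : E → F} {w : E → ℤ → ℝ} (hw : WOK w)
    (hhalf : ∀ e, w e 0 ≤ 2 * w e 1) (v0 : F)
    (hsum : Summable fun h : Ht F v0 => Wt s t w h.1 * qq h.1)
    (α β α' β' : F → ℝ) (hα0 : ∀ x, 0 ≤ α x) (hα : ∑ x, α x = 1) (hβ : ∑ x, β x = 1)
    (hα0' : ∀ x, 0 ≤ α' x) (hα' : ∑ x, α' x = 1) (hβ' : ∑ x, β' x = 1)
    (hcross : ∀ S T : Finset E, Disjoint S T → Cr s t α β S → Cr s t α' β' T → False)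
    (m : ℤ) (d : ℝ) (hd : 0 < d) :
    ∑' h : Ht F v0, Wt s t w h.1 * ind (∑ x, α x * (h.1 x : ℝ) < m + 1 / 2 - d) +
      ∑' h : Ht F v0, Wt s t w h.1 * ind (m - 1 / 2 + d < ∑ x, α' x * (h.1 x : ℝ)) ≤
      ∑' h : Ht F v0, Wt s t w h.1 +
        (d ^ 2)⁻¹ * (∑' h : Ht F v0, Wt s t w h.1 *
          (∑ x, α x * (h.1 x : ℝ) - ∑ x, β x * (h.1 x : ℝ)) ^ 2 +
          ∑' h : Ht F v0, Wt s t w h.1 *
          (∑ x, α' x * (h.1 x : ℝ) - ∑ x, β' x * (h.1 x : ℝ)) ^ 2) := by
  have h1 := level hw m hsum α β hα0 hα hβ d hd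
  have h2 := level' hw m hsum α' β' hα0' hα' hβ' d hd
  have s1 : ∀ (ω : Finset E), Summable fun h : Ht F v0 => Ow s t w m h.1 ω *
      ind (Cr s t α β (lowE s t m h.1 ω)) := fun ω =>
    summable_Ow hw m hsum ω (fun h =>
      ind (Cr s t α β (lowE s t m h ω))) 1
      (fun h => by
        rw [abs_of_nonneg (ind_nonneg _), one_mul]
        exact le_trans (ind_le_one _) (one_le_qq h))
  have s2 : ∀ (ω : Finset E), Summable fun h : Ht F v0 => Ow s t w (m - 1) h.1 ω *
      ind (Cr s t α' β' (highE s t m h.1 ω)) := fun ω =>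
    summable_Ow hw (m - 1) hsum ω (fun h =>
      ind (Cr s t α' β' (highE s t m h ω))) 1
      (fun h => by
        rw [abs_of_nonneg (ind_nonneg _), one_mul]
        exact le_trans (ind_le_one _) (one_le_qq h))
  have s3 : Summable fun h : Ht F v0 => Wt s t w h.1 := by
    have := summable_Wt (s := s) (t := t) hw hsum (fun _ => 1) 1
      (fun h => by rw [abs_one, one_mul]; exact one_le_qq h)
    simpa using this
  have h3 : ∑' h : Ht F v0, ∑ ω ∈ (Finset.univ : Finset E).powerset, Ow s t w m h.1 ω *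
        ind (Cr s t α β (lowE s t m h.1 ω)) +
      ∑' h : Ht F v0, ∑ ω ∈ (Finset.univ : Finset E).powerset, Ow s t w (m - 1) h.1 ω *
        ind (Cr s t α' β' (highE s t m h.1 ω)) ≤ ∑' h : Ht F v0, Wt s t w h.1 := by
    rw [← (summable_sum fun ω _ => s1 ω).tsum_add (summable_sum fun ω _ => s2 ω)]
    exact ((summable_sum fun ω _ => s1 ω).add (summable_sum fun ω _ => s2 ω)).tsum_le_tsum
      (fun h => coupling_levels hw hhalf α β α' β' hcross m h.1) s3
  linarith

end fk

end Vale.Agent.P159.H170
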