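import Vale.Agent.P159.H261.Main

/-!
The critical point of the square-lattice XY model: unconditional statements.
-/

open MeasureTheory Filter Topology
open scoped BigOperators

namespace Vale.Agent.P159.H170

open Vale.Agent.P159 Vale.Agent.P159.UJ

theorem le_of_massless {b : ℝ} (hb : 0 < b) (hm : mass b = 0) : 2 / Real.pi ≤ b := by
  have := UJ.jump hb hm (le_refl 1)
  rwa [stiff_one] at this

theorem bCrit_le : bCrit ≤ 7 / 2 := by
  unfold bCrit
  exact csInf_le ⟨0, fun x hx => hx.1.le⟩ ⟨by norm_num, H261.mass_seven_halves⟩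

theorem bCrit_pos : 0 < bCrit := by
  have hpi := Real.pi_pos
  have : 2 / Real.pi ≤ bCrit := by
    unfold bCrit
    refine le_csInf ⟨7 / 2, by norm_num, H261.mass_seven_halves⟩ fun b hb => ?_
    exact le_of_massless hb.1 hb.2
  exact lt_of_lt_of_le (by positivity) this

theorem mass_bCrit' : mass bCrit = 0 := (H873.old.2.2.1 bCrit_pos).1

theorem lt_bCrit : 2 / Real.pi < bCrit :=
  lt_of_le_of_lt (UJ.jump bCrit_pos mass_bCrit' (le_refl 2 |>.trans' (by norm_num)))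
    (H873.old.2.2.2.1 bCrit bCrit_pos |>.2.1 2 (le_refl 2))

theorem mass_iff {b : ℝ} (hb : 0 < b) : mass b = 0 ↔ bCrit ≤ b := by
  constructor
  · intro h
    unfold bCrit
    exact csInf_le ⟨0, fun x hx => hx.1.le⟩ ⟨hb, h⟩
  · intro h
    exact H873.mass_zero_of_ge' bCrit_pos mass_bCrit' h

theorem hel_bCrit_lt : helicity bCrit < 7 / 2 := by
  have h1 : helicity bCrit ≤ stiff 2 bCrit := H873.hel_le bCrit_pos.le (by norm_num)
  have h2 := (H873.old.2.2.2.1 bCrit bCrit_pos).2.1 2 (le_refl 2)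
  have h3 := bCrit_le
  linarith

theorem hel_bCrit_ge : 2 / Real.pi ≤ helicity bCrit := (H873.old.2.2.1 bCrit_pos).2.1

theorem final :
    -- the massless phase is `[bCrit, ∞)`, with `2 / π < bCrit ≤ 7 / 2`
    (2 / Real.pi < bCrit ∧ bCrit ≤ 7 / 2 ∧ ∀ b : ℝ, 0 < b → (mass b = 0 ↔ bCrit ≤ b)) ∧
    -- the helicity modulus vanishes below `bCrit`
    (∀ b : ℝ, 0 < b → b < bCrit → 0 < mass b ∧ helicity b = 0 ∧
      ∃ C : ℝ, ∀ l : ℕ, 1 ≤ l → stiff l b ≤ C / l) ∧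
    -- it jumps at `bCrit` and then increases strictly
    (2 / Real.pi ≤ helicity bCrit ∧ Tendsto helicity (𝓝[>] bCrit) (𝓝 (helicity bCrit)) ∧
      StrictMonoOn helicity (Set.Ici bCrit) ∧
      ∀ b : ℝ, bCrit ≤ b → (∀ l : ℕ, 1 ≤ l → 2 / Real.pi ≤ stiff l b) ∧
        2 / Real.pi ≤ 1 / (Real.pi / 2 - 1 / bCrit + 1 / b) ∧
        1 / (Real.pi / 2 - 1 / bCrit + 1 / b) ≤ helicity b ∧
        ∀ b' : ℝ, b ≤ b' → 1 / helicity b' - 1 / b' ≤ 1 / helicity b - 1 / b) ∧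
    -- decay at `bCrit`
    (∀ η : ℝ, η < 1 / (2 * Real.pi * helicity bCrit) → ∃ K : ℝ, ∀ x : ℤ × ℤ, x ≠ 0 →
      corrInf bCrit x ≤ K * ((max |x.1| |x.2| : ℤ) : ℝ) ^ (-η)) ∧
    (∃ K : ℝ, ∀ x : ℤ × ℤ, x ≠ 0 →
      corrInf bCrit x ≤ K * ((max |x.1| |x.2| : ℤ) : ℝ) ^ (-(1 / (7 * Real.pi)))) ∧
    -- the correlation length
    (∀ ν : ℝ, ν < 1 / (2 - 1 / (2 * Real.pi * helicity bCrit)) →
      ∃ c δ : ℝ, 0 < c ∧ 0 < δ ∧ ∀ b : ℝ, bCrit - δ < b → b < bCrit →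
        c * (bCrit - b) ^ (-ν) ≤ corrLength b) ∧
    (∃ c δ : ℝ, 0 < c ∧ 0 < δ ∧ ∀ b : ℝ, bCrit - δ < b → b < bCrit →
        c * (bCrit - b) ^ (-(1 / (2 - 1 / (7 * Real.pi)))) ≤ corrLength b) := by
  have hpi := Real.pi_pos
  have hc := bCrit_pos
  have hY := hel_bCrit_ge
  have hY0 : 0 < helicity bCrit := lt_of_lt_of_le (by positivity) hY
  have hY7 := hel_bCrit_lt
  have key : 1 / (7 * Real.pi) < 1 / (2 * Real.pi * helicity bCrit) := by
    apply one_div_lt_one_div_of_lt (by positivity)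
    nlinarith
  have hdec : ∀ η : ℝ, η < 1 / (2 * Real.pi * helicity bCrit) → ∃ K : ℝ, ∀ x : ℤ × ℤ, x ≠ 0 →
      corrInf bCrit x ≤ K * ((max |x.1| |x.2| : ℤ) : ℝ) ^ (-η) := by
    intro η hη
    exact H873.decay_all hc ((lt_div_iff₀ (by positivity)).1 hη)
  have hxi : ∀ ν : ℝ, ν < 1 / (2 - 1 / (2 * Real.pi * helicity bCrit)) →
      ∃ c δ : ℝ, 0 < c ∧ 0 < δ ∧ ∀ b : ℝ, bCrit - δ < b → b < bCrit →
        c * (bCrit - b) ^ (-ν) ≤ corrLength b := by
    intro ν hν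
    obtain ⟨c, δ, h1, h2, h3⟩ := H873.xi_hel hc hν
    refine ⟨c, min δ bCrit, h1, lt_min h2 hc, fun b hb hb' => ?_⟩
    have h4 := min_le_left δ bCrit
    have h5 := min_le_right δ bCrit
    exact h3 b (by linarith) (by linarith) hb'
  refine ⟨⟨lt_bCrit, bCrit_le, fun b hb => mass_iff hb⟩, fun b hb hlt => ?_,
    ⟨hY, ?_, H873.hel_strict' hc mass_bCrit', fun b hb => ?_⟩, hdec, hdec _ key, hxi,
    hxi _ ?_⟩
  · have h1 := (H873.old.2.2.1 hc).2.2 b hb hlt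
    exact ⟨h1.1, h1.2, ((H873.old.2.1 b hb).2 h1.1).2⟩
  · have h1 := H873.hel_right hc
    exact h1.tendsto.mono_left (nhdsWithin_mono _ Set.Ioi_subset_Ici_self)
  · have hb0 : 0 < b := hc.trans_le hb
    have hm : mass b = 0 := (mass_iff hb0).2 hb
    have h1 := H873.hel_lower' hc mass_bCrit' hb
    refine ⟨fun l hl => UJ.jump hb0 hm hl, ?_, h1.2, fun b' hb' => ?_⟩
    · have e : 2 / Real.pi = 1 / (Real.pi / 2) := by field_simp
      rw [e]
      apply one_div_le_one_div_of_le h1.1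
      have : 1 / b ≤ 1 / bCrit := one_div_le_one_div_of_le hc hb
      linarith
    · exact H873.hel_ren hb0 hb' (hY0.trans_le (H873.hel_mono hc.le hb))
  · have h1 : 1 / (2 * Real.pi * helicity bCrit) ≤ 1 / 4 := by
      apply one_div_le_one_div_of_le (by norm_num)
      have h2 : 2 ≤ helicity bCrit * Real.pi := by
        rwa [div_le_iff₀ hpi] at hY
      nlinarith
    apply one_div_lt_one_div_of_lt
    · linarith
    · linarith

end Vale.Agent.P159.H170
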