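import Vale.Agent.P159.H170.FK

/-!
A real random variable which avoids every interval around the integers has a negative
characteristic function at `2π`.
-/

open scoped BigOperators

namespace Vale.Agent.P159.H170

/-- pointwise bound of the cosine -/
theorem cos_le_ind (X : ℝ) (M : ℕ) (hM : 0 < M) :
    Real.cos (2 * Real.pi * X) ≤ -(1 / 2) + 3 / 2 * (∑ m ∈ Finset.Icc (-(M : ℤ)) M,
      (ind (X < m + 1 / 2 - 1 / 6) + ind ((m : ℝ) - 1 / 2 + 1 / 6 < X) - 1) + X ^ 2 / M ^ 2) := by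
  have hpos : ∀ m : ℤ, 0 ≤ ind (X < m + 1 / 2 - 1 / 6) + ind ((m : ℝ) - 1 / 2 + 1 / 6 < X) - 1 := by
    intro m
    by_cases h1 : X < m + 1 / 2 - 1 / 6
    · rw [ind_true h1]
      have := ind_nonneg ((m : ℝ) - 1 / 2 + 1 / 6 < X)
      linarith
    · have h2 : (m : ℝ) - 1 / 2 + 1 / 6 < X := by linarith
      rw [ind_true h2]
      have := ind_nonneg (X < m + 1 / 2 - 1 / 6)
      linarith
  have hM' : (0 : ℝ) < M := by exact_mod_cast hM
  set m : ℤ := round X with hm
  have hr : |X - m| ≤ 1 / 2 := abs_sub_round X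
  have hcos : Real.cos (2 * Real.pi * X) = Real.cos (2 * Real.pi * (X - m)) := by
    have : 2 * Real.pi * (X - m) = 2 * Real.pi * X - (m : ℤ) * (2 * Real.pi) := by ring
    rw [this, Real.cos_sub_int_mul_two_pi]
  have hsum0 : 0 ≤ ∑ m ∈ Finset.Icc (-(M : ℤ)) M,
      (ind (X < m + 1 / 2 - 1 / 6) + ind ((m : ℝ) - 1 / 2 + 1 / 6 < X) - 1) :=
    Finset.sum_nonneg fun m _ => hpos m
  have hX2 : 0 ≤ X ^ 2 / (M : ℝ) ^ 2 := by positivity
  by_cases hc : |X - m| < 1 / 3
  · -- near an integer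
    have h1 : 1 ≤ ∑ m ∈ Finset.Icc (-(M : ℤ)) M,
      (ind (X < m + 1 / 2 - 1 / 6) + ind ((m : ℝ) - 1 / 2 + 1 / 6 < X) - 1) + X ^ 2 / M ^ 2 := by
      rw [abs_lt] at hc
      by_cases hmM : m ∈ Finset.Icc (-(M : ℤ)) M
      · have h2 : ind (X < m + 1 / 2 - 1 / 6) + ind ((m : ℝ) - 1 / 2 + 1 / 6 < X) - 1 = 1 := by
          rw [ind_true (by linarith), ind_true (by linarith)]; norm_num
        have h3 := Finset.single_le_sum (f := fun m : ℤ =>
          ind (X < m + 1 / 2 - 1 / 6) + ind ((m : ℝ) - 1 / 2 + 1 / 6 < X) - 1)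
          (fun m _ => hpos m) hmM
        linarith
      · have h2 : (M : ℝ) ≤ |X| := by
          rw [Finset.mem_Icc, not_and_or, not_le, not_le] at hmM
          rcases hmM with h | h
          · have h3 : m + 1 ≤ -(M : ℤ) := by omega
            have h4 : (m : ℝ) + 1 ≤ -(M : ℝ) := by exact_mod_cast h3
            rw [le_abs]; right; linarith
          · have h3 : (M : ℤ) + 1 ≤ m := by omega
            have h4 : (M : ℝ) + 1 ≤ m := by exact_mod_cast h3
            rw [le_abs]; left; linarith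
        have h5 : 1 ≤ X ^ 2 / (M : ℝ) ^ 2 := by
          rw [one_le_div (by positivity), ← sq_abs X]
          exact pow_le_pow_left₀ hM'.le h2 2
        linarith
    have := Real.cos_le_one (2 * Real.pi * X)
    linarith
  · -- near a half integer
    have hc' : 1 / 3 ≤ |X - m| := not_lt.1 hc
    have h1 : Real.cos (2 * Real.pi * X) ≤ -(1 / 2) := by
      rw [hcos, ← Real.cos_abs, abs_mul, abs_of_pos Real.two_pi_pos]
      have e1 : Real.cos (Real.pi - Real.pi / 3) = -(1 / 2) := by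
        rw [Real.cos_pi_sub, Real.cos_pi_div_three]
      rw [← e1]
      apply Real.cos_le_cos_of_nonneg_of_le_pi
      · have := Real.pi_pos; linarith
      · have := Real.pi_pos; nlinarith
      · have := Real.pi_pos; nlinarith
    linarith

/-- the random variable `X` with symmetric partner `X'` has a negative characteristic function at
`2π` -/
theorem gap_lemma {Ω : Type*} (W X Y X' Y' : Ω → ℝ) (hW : ∀ h, 0 ≤ W h) (hWs : Summable W)
    (hX2 : Summable fun h => W h * X h ^ 2)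
    (hlevel : ∀ (m : ℤ) (d : ℝ), 0 < d →
      ∑' h, W h * ind (X h < m + 1 / 2 - d) + ∑' h, W h * ind (m - 1 / 2 + d < X' h) ≤
        ∑' h, W h + (d ^ 2)⁻¹ * (∑' h, W h * (X h - Y h) ^ 2 + ∑' h, W h * (X' h - Y' h) ^ 2))
    (hsym : ∀ a : ℝ, ∑' h, W h * ind (a < X' h) = ∑' h, W h * ind (a < X h))
    (hsym2 : ∑' h, W h * (X' h - Y' h) ^ 2 = ∑' h, W h * (X h - Y h) ^ 2)
    (M : ℕ) (hM : 0 < M) :
    ∑' h, W h * Real.cos (2 * Real.pi * X h) ≤ -(1 / 2) * ∑' h, W h +
      108 * (2 * M + 1) * ∑' h, W h * (X h - Y h) ^ 2 +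
      3 / 2 * (∑' h, W h * X h ^ 2) / M ^ 2 := by
  have si : ∀ p : Ω → Prop, Summable fun h => W h * ind (p h) := fun p =>
    Summable.of_nonneg_of_le (fun h => mul_nonneg (hW h) (ind_nonneg _))
      (fun h => by
        calc W h * ind (p h) ≤ W h * 1 := mul_le_mul_of_nonneg_left (ind_le_one _) (hW h)
          _ = W h := mul_one _) hWs
  have sc : Summable fun h => W h * Real.cos (2 * Real.pi * X h) := by
    refine Summable.of_norm_bounded hWs fun h => ?_
    rw [Real.norm_eq_abs, abs_mul, abs_of_nonneg (hW h)]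
    calc W h * |Real.cos (2 * Real.pi * X h)| ≤ W h * 1 :=
          mul_le_mul_of_nonneg_left (Real.abs_cos_le_one _) (hW h)
      _ = W h := mul_one _
  have hm : ∀ m : ℤ, ∑' h, W h * ind (X h < m + 1 / 2 - 1 / 6) +
      ∑' h, W h * ind ((m : ℝ) - 1 / 2 + 1 / 6 < X h) - ∑' h, W h ≤
      72 * ∑' h, W h * (X h - Y h) ^ 2 := by
    intro m
    have := hlevel m (1 / 6) (by norm_num)
    rw [hsym, hsym2] at this
    have e : (((1 : ℝ) / 6) ^ 2)⁻¹ = 36 := by norm_num
    rw [e] at this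
    linarith
  have sm : ∀ m : ℤ, Summable fun h => W h * (ind (X h < m + 1 / 2 - 1 / 6) +
      ind ((m : ℝ) - 1 / 2 + 1 / 6 < X h) - 1) := by
    intro m
    have := ((si fun h => X h < m + 1 / 2 - 1 / 6).add
      (si fun h => (m : ℝ) - 1 / 2 + 1 / 6 < X h)).sub hWs
    refine this.congr fun h => ?_
    ring
  have hm' : ∀ m : ℤ, ∑' h, W h * (ind (X h < m + 1 / 2 - 1 / 6) +
      ind ((m : ℝ) - 1 / 2 + 1 / 6 < X h) - 1) ≤ 72 * ∑' h, W h * (X h - Y h) ^ 2 := by
    intro m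
    refine le_trans (le_of_eq ?_) (hm m)
    rw [← (si _).tsum_add (si _), ← ((si _).add (si _)).tsum_sub hWs]
    exact tsum_congr fun h => by ring
  have hb : ∑' h, W h * Real.cos (2 * Real.pi * X h) ≤
      ∑' h, (-(1 / 2) * W h + (3 / 2 * ∑ m ∈ Finset.Icc (-(M : ℤ)) M,
        W h * (ind (X h < m + 1 / 2 - 1 / 6) + ind ((m : ℝ) - 1 / 2 + 1 / 6 < X h) - 1) +
        3 / 2 / M ^ 2 * (W h * X h ^ 2))) := by
    refine sc.tsum_le_tsum (fun h => ?_) ?_
    · have := mul_le_mul_of_nonneg_left (cos_le_ind (X h) M hM) (hW h)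
      refine le_trans this (le_of_eq ?_)
      rw [← Finset.mul_sum]
      ring
    · exact (hWs.mul_left _).add (((summable_sum fun m _ => sm m).mul_left _).add
        (hX2.mul_left _))
  rw [(hWs.mul_left _).tsum_add (((summable_sum fun m _ => sm m).mul_left _).add
        (hX2.mul_left _)), ((summable_sum fun m _ => sm m).mul_left _).tsum_add
        (hX2.mul_left _), tsum_mul_left, tsum_mul_left, tsum_mul_left,
        Summable.tsum_finsetSum fun m _ => sm m] at hb
  have h2 : ∑ m ∈ Finset.Icc (-(M : ℤ)) M, ∑' h, W h * (ind (X h < m + 1 / 2 - 1 / 6) +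
      ind ((m : ℝ) - 1 / 2 + 1 / 6 < X h) - 1) ≤
      ∑ m ∈ Finset.Icc (-(M : ℤ)) M, 72 * ∑' h, W h * (X h - Y h) ^ 2 :=
    Finset.sum_le_sum fun m _ => hm' m
  rw [Finset.sum_const, Int.card_Icc, nsmul_eq_mul] at h2
  have e3 : (((M : ℤ) + 1 - (-(M : ℤ))).toNat : ℝ) = 2 * M + 1 := by
    have : ((M : ℤ) + 1 - (-(M : ℤ))).toNat = 2 * M + 1 := by omega
    rw [this]; push_cast; ring
  rw [e3] at h2
  have e4 : 3 / 2 / (M : ℝ) ^ 2 * ∑' h, W h * X h ^ 2 =
    3 / 2 * (∑' h, W h * X h ^ 2) / M ^ 2 := by ring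
  rw [e4] at hb
  linarith

end Vale.Agent.P159.H170
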