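import Vale.Agent.P159.H170.TriGap

/-!
The heights on the triangulated block cannot be both rough and flat.
-/

open scoped BigOperators

namespace Vale.Agent.P159.H170

open Vale.Agent.P159.H353 (Fc Ed lo hi lf rt cur wt wI)

theorem no_go (C C' : ℝ) (h : ∀ N M : ℕ, 0 < N → 0 < M →
    0 < -(1 / 2) + 108 * (2 * M + 1) * (C / N) + 3 / 2 * (C' * N) / (M : ℝ) ^ 2) : False := by
  obtain ⟨k, hk⟩ := exists_nat_gt (12 * |C'|)
  obtain ⟨L, hL⟩ := exists_nat_gt (864 * (2 * (k + 1) + 1) * |C|)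
  have hk0 : (0 : ℝ) ≤ k := Nat.cast_nonneg k
  have hL0 : (0 : ℝ) ≤ L := Nat.cast_nonneg L
  have h1 := h ((L + 1) ^ 2) ((k + 1) * (L + 1)) (by positivity) (by positivity)
  push_cast at h1
  have hL1 : (0 : ℝ) < (L : ℝ) + 1 := by linarith
  have hk1 : (1 : ℝ) ≤ (k : ℝ) + 1 := by linarith
  have e1 : 3 / 2 * (C' * ((L : ℝ) + 1) ^ 2) / (((k : ℝ) + 1) * ((L : ℝ) + 1)) ^ 2 ≤ 1 / 8 := by
    rw [div_le_iff₀ (by positivity)]
    have h2 : 12 * C' ≤ ((k : ℝ) + 1) ^ 2 := by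
      have := le_abs_self C'
      nlinarith
    have h3 := mul_le_mul_of_nonneg_right h2 (sq_nonneg ((L : ℝ) + 1))
    nlinarith
  have e2 : 108 * (2 * (((k : ℝ) + 1) * ((L : ℝ) + 1)) + 1) * (C / ((L : ℝ) + 1) ^ 2) ≤ 1 / 8 := by
    rw [mul_div_assoc', div_le_iff₀ (by positivity)]
    have hC := le_abs_self C
    have hC0 := abs_nonneg C
    have h4 : (2 * (((k : ℝ) + 1) * ((L : ℝ) + 1)) + 1) ≤ (2 * ((k : ℝ) + 1) + 1) * (L + 1) := by
      nlinarith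
    have h5 : 108 * (2 * (((k : ℝ) + 1) * ((L : ℝ) + 1)) + 1) * C ≤
        108 * ((2 * ((k : ℝ) + 1) + 1) * (L + 1)) * |C| := by
      have h6 : 0 ≤ 2 * (((k : ℝ) + 1) * ((L : ℝ) + 1)) + 1 := by positivity
      calc 108 * (2 * (((k : ℝ) + 1) * ((L : ℝ) + 1)) + 1) * C
          ≤ 108 * (2 * (((k : ℝ) + 1) * ((L : ℝ) + 1)) + 1) * |C| :=
            mul_le_mul_of_nonneg_left hC (by positivity)
        _ ≤ _ := by
            apply mul_le_mul_of_nonneg_right _ hC0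
            linarith
    have h7 : 864 * (2 * ((k : ℝ) + 1) + 1) * |C| * (L + 1) ≤ (L + 1) * (L + 1) :=
      mul_le_mul_of_nonneg_right (by linarith) hL1.le
    nlinarith
  linarith

/-- the contradiction -/
theorem rough_flat_false (b c C C' : ℝ) (hw : ∀ N, WOK (wt (N := N) b c))
    (hb : wI b 0 ≤ 2 * wI b 1) (hc : wI c 0 ^ 2 ≤ 2 * wI c 1 ^ 2)
    (hsum : ∀ N (hN : 0 < N),
      Summable fun h : Ht (Fc N) (v0 N hN) => Wt lf rt (wt b c) h.1 * qq h.1)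
    (hpos : ∀ N (hN : 0 < N), 0 < ∑' h : Ht (Fc N) (v0 N hN), Wt lf rt (wt b c) h.1 *
        Real.cos (2 * Real.pi * ∑ x, aL N x * (h.1 x : ℝ)))
    (hV : ∀ N (hN : 0 < N), ∑' h : Ht (Fc N) (v0 N hN), Wt lf rt (wt b c) h.1 *
        (∑ x, aL N x * (h.1 x : ℝ)) ^ 2 ≤
        C' * N * ∑' h : Ht (Fc N) (v0 N hN), Wt lf rt (wt b c) h.1)
    (hE : ∀ N (hN : 0 < N), ∑' h : Ht (Fc N) (v0 N hN), Wt lf rt (wt b c) h.1 *
        (∑ x, aL N x * (h.1 x : ℝ) - ∑ x, aR N x * (h.1 x : ℝ)) ^ 2 ≤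
        C / N * ∑' h : Ht (Fc N) (v0 N hN), Wt lf rt (wt b c) h.1) : False := by
  refine no_go C C' fun N M hN hM => ?_
  have h1 := tri_gap N hN b c (hw N) hb hc (hsum N hN) M hM
  have h2 := hpos N hN
  have h3 := hV N hN
  have h4 := hE N hN
  set Z := ∑' h : Ht (Fc N) (v0 N hN), Wt lf rt (wt b c) h.1 with hZ
  have hZ0 : 0 ≤ Z := tsum_nonneg fun h => Wt_nonneg (hw N) h.1
  have hM' : (0 : ℝ) < M := by exact_mod_cast hM
  have h5 : 0 < Z * (-(1 / 2) + 108 * (2 * M + 1) * (C / N) +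
      3 / 2 * (C' * N) / (M : ℝ) ^ 2) := by
    have e1 : 108 * (2 * (M : ℝ) + 1) * ∑' h : Ht (Fc N) (v0 N hN), Wt lf rt (wt b c) h.1 *
        (∑ x, aL N x * (h.1 x : ℝ) - ∑ x, aR N x * (h.1 x : ℝ)) ^ 2 ≤
        108 * (2 * M + 1) * (C / N * Z) := mul_le_mul_of_nonneg_left h4 (by positivity)
    have e2 : 3 / 2 * (∑' h : Ht (Fc N) (v0 N hN), Wt lf rt (wt b c) h.1 *
        (∑ x, aL N x * (h.1 x : ℝ)) ^ 2) / (M : ℝ) ^ 2 ≤ 3 / 2 * (C' * N * Z) / (M : ℝ) ^ 2 := by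
      apply div_le_div_of_nonneg_right _ (by positivity)
      linarith
    calc 0 < -(1 / 2) * Z + 108 * (2 * M + 1) * (C / N * Z) +
          3 / 2 * (C' * N * Z) / (M : ℝ) ^ 2 := by linarith
      _ = _ := by ring
  exact (pos_iff_pos_of_mul_pos h5).1 (by
    rcases hZ0.eq_or_lt with h | h
    · rw [← h, zero_mul] at h5; exact absurd h5 (lt_irrefl _)
    · exact h)

end Vale.Agent.P159.H170
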