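import Vale.Agent.P159.H170.FK
import Vale.Agent.P159.H353.TriDefs

/-!
The crossing lemma for the dual graph of the triangulated block.
-/

open scoped BigOperators

namespace Vale.Agent.P159.H170

open Vale.Agent.P159.H353

/-- the bonds as sides of triangles -/
def toEdg {N : ℕ} : Ed N → Edg N
  | Sum.inl p => (p.1, p.2, 0)
  | Sum.inr (Sum.inl p) => (lo p.1, p.2, 1)
  | Sum.inr (Sum.inr p) => (p.1, hi p.2, 2)

theorem toEdg_inj {N : ℕ} : Function.Injective (toEdg (N := N)) := by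
  intro e e' h
  rcases e with ⟨a, b⟩ | ⟨a, b⟩ | ⟨a, b⟩ <;> rcases e' with ⟨a', b'⟩ | ⟨a', b'⟩ | ⟨a', b'⟩ <;>
    simp only [toEdg, Prod.mk.injEq, Fin.reduceEq, and_false, and_true] at h
  · obtain ⟨h1, h2⟩ := h
    subst h1; subst h2; rfl
  · obtain ⟨h1, h2⟩ := h
    have : a = a' := by
      apply Fin.ext
      have := congrArg Fin.val h1
      simpa [lo] using this
    subst this; subst h2; rfl
  · obtain ⟨h1, h2⟩ := h
    have : b = b' := by
      apply Fin.ext
      have := congrArg Fin.val h2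
      simpa [hi] using this
    subst this; subst h1; rfl

theorem toEdg_ends {N : ℕ} (e : Ed N) :
    (src (toEdg e) = lf e ∧ tgt (toEdg e) = rt e) ∨
      (src (toEdg e) = rt e ∧ tgt (toEdg e) = lf e) := by
  rcases e with ⟨a, b⟩ | ⟨a, b⟩ | ⟨a, b⟩
  · right
    constructor
    · rfl
    · simp [toEdg, tgt, lf]
  · left
    have ha : (a : ℕ) + 1 < N := by have := a.2; omega
    constructor
    · rfl
    · simp only [toEdg, tgt, rt, lo, hi]
      simp only [Fin.isValue, Fin.reduceEq, if_false, if_true]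
      exact dif_pos ha
  · left
    constructor
    · rfl
    · simp only [toEdg, tgt, rt, lo, hi]
      simp

theorem conn_toEdg {N : ℕ} {S : Finset (Ed N)} {x y : Fc N} (h : Conn lf rt S x y) :
    Conn src tgt (S.image toEdg) x y := by
  unfold Conn at h ⊢
  refine Relation.ReflTransGen.mono ?_ _ _ h
  rintro a b ⟨e, he, hab⟩
  refine ⟨toEdg e, Finset.mem_image_of_mem _ he, ?_⟩
  rcases toEdg_ends e with ⟨h1, h2⟩ | ⟨h1, h2⟩ <;> rw [h1, h2] <;> tauto

/-- the crossing hypothesis of the two level inequality holds in the block -/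
theorem cross_tri {N : ℕ} {α β α' β' : Fc N → ℝ} (hα : ∀ x, α x ≠ 0 → IsLeft x)
    (hβ : ∀ x, β x ≠ 0 → IsRight x) (hα' : ∀ x, α' x ≠ 0 → IsTop x)
    (hβ' : ∀ x, β' x ≠ 0 → IsBot x) (S T : Finset (Ed N)) (hST : Disjoint S T)
    (h : Cr lf rt α β S) (h' : Cr lf rt α' β' T) : False := by
  obtain ⟨x, y, hx, hy, hxy⟩ := h
  obtain ⟨x', y', hx', hy', hxy'⟩ := h'
  refine no_cross ?_ (hα x hx) (hβ y hy) (conn_toEdg hxy) (hα' x' hx') (hβ' y' hy')
    (conn_toEdg hxy')
  exact (Finset.disjoint_image toEdg_inj).2 hST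

end Vale.Agent.P159.H170
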