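import Vale.Agent.P159.H170.Gap
import Vale.Agent.P159.H170.Tri

/-!
The gap lemma for the heights on the triangulated block.
-/

open scoped BigOperators

namespace Vale.Agent.P159.H170

open Vale.Agent.P159.H353 (Fc Ed lo hi lf rt cur wt wI)

/-- the base face `L(N-1,0)` -/
def v0 (N : ℕ) (hN : 0 < N) : Fc N := (⟨N - 1, by omega⟩, ⟨0, hN⟩, false)

/-- uniform distribution on the faces `U(0,j)` -/
noncomputable def aL (N : ℕ) (x : Fc N) : ℝ := if (x.1 : ℕ) = 0 ∧ x.2.2 = true then 1 / N else 0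

/-- uniform distribution on the faces `L(N-1,j)` -/
noncomputable def aR (N : ℕ) (x : Fc N) : ℝ :=
  if (x.1 : ℕ) + 1 = N ∧ x.2.2 = false then 1 / N else 0

/-- uniform distribution on the faces `U(i,N-1)` -/
noncomputable def aT (N : ℕ) (x : Fc N) : ℝ :=
  if (x.2.1 : ℕ) + 1 = N ∧ x.2.2 = true then 1 / N else 0

/-- uniform distribution on the faces `L(i,0)` -/
noncomputable def aB (N : ℕ) (x : Fc N) : ℝ :=
  if (x.2.1 : ℕ) = 0 ∧ x.2.2 = false then 1 / N else 0

/-- the reflection `(x,y) ↦ (N-y,N-x)` on the faces -/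
def rf {N : ℕ} (x : Fc N) : Fc N := (x.2.1.rev, x.1.rev, x.2.2)

theorem rf_rf {N : ℕ} (x : Fc N) : rf (rf x) = x := by
  obtain ⟨i, j, k⟩ := x
  simp [rf, Fin.rev_rev]

/-- the reflection on the bonds -/
def re {N : ℕ} : Ed N → Ed N
  | Sum.inl p => Sum.inl (p.2.rev, p.1.rev)
  | Sum.inr (Sum.inl p) => Sum.inr (Sum.inr (p.2.rev, p.1.rev))
  | Sum.inr (Sum.inr p) => Sum.inr (Sum.inl (p.2.rev, p.1.rev))

theorem re_re {N : ℕ} (e : Ed N) : re (re e) = e := by
  rcases e with p | p | p <;> simp [re, Fin.rev_rev]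

/-- the reflection of the bonds as a permutation -/
def reEquiv {N : ℕ} : Ed N ≃ Ed N := ⟨re, re, re_re, re_re⟩

theorem lf_re {N : ℕ} (e : Ed N) : lf (re e) = rf (lf e) := by
  rcases e with ⟨i, j⟩ | ⟨i, j⟩ | ⟨i, j⟩
  · rfl
  · simp only [re, lf, rf, Prod.mk.injEq, true_and, and_true]
    apply Fin.ext
    have := i.2
    simp only [hi, lo, Fin.val_rev]
    omega
  · simp only [re, lf, rf, Prod.mk.injEq, true_and, and_true]
    apply Fin.ext
    have := j.2
    simp only [hi, lo, Fin.val_rev]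
    omega

theorem rt_re {N : ℕ} (e : Ed N) : rt (re e) = rf (rt e) := by
  rcases e with ⟨i, j⟩ | ⟨i, j⟩ | ⟨i, j⟩
  · rfl
  · simp only [re, rt, rf, Prod.mk.injEq, true_and, and_true]
    apply Fin.ext
    have := i.2
    simp only [hi, lo, Fin.val_rev]
    omega
  · simp only [re, rt, rf, Prod.mk.injEq, true_and, and_true]
    apply Fin.ext
    have := j.2
    simp only [hi, lo, Fin.val_rev]
    omega

theorem wt_re {N : ℕ} (b c : ℝ) (e : Ed N) : wt b c (re e) = wt b c e := by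
  rcases e with ⟨i, j⟩ | ⟨i, j⟩ | ⟨i, j⟩ <;> rfl

theorem rf_v0 (N : ℕ) (hN : 0 < N) : rf (v0 N hN) = v0 N hN := by
  unfold rf v0
  simp only [Prod.mk.injEq, and_true]
  constructor
  · apply Fin.ext
    simp only [Fin.val_rev]
    try omega
  · apply Fin.ext
    simp only [Fin.val_rev]
    omega

/-- reflected heights -/
def rh {N : ℕ} {hN : 0 < N} : Ht (Fc N) (v0 N hN) ≃ Ht (Fc N) (v0 N hN) where
  toFun h := ⟨fun x => h.1 (rf x), by simp only [rf_v0]; exact h.2⟩
  invFun h := ⟨fun x => h.1 (rf x), by simp only [rf_v0]; exact h.2⟩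
  left_inv h := Subtype.ext (by ext x; simp only [rf_rf])
  right_inv h := Subtype.ext (by ext x; simp only [rf_rf])

theorem Wt_rf {N : ℕ} (b c : ℝ) (h : Fc N → ℤ) :
    Wt lf rt (wt b c) (fun x => h (rf x)) = Wt lf rt (wt b c) h := by
  unfold Wt
  rw [← (reEquiv (N := N)).prod_comp]
  refine Finset.prod_congr rfl fun e _ => ?_
  have e1 : reEquiv e = re e := rfl
  rw [e1, wt_re, lf_re, rt_re]
  simp only [rf_rf]

/-- invariance under the reflection -/
theorem tsum_rf {N : ℕ} {hN : 0 < N} (b c : ℝ) (g : (Fc N → ℤ) → ℝ) :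
    ∑' h : Ht (Fc N) (v0 N hN), Wt lf rt (wt b c) h.1 * g (fun x => h.1 (rf x)) =
      ∑' h : Ht (Fc N) (v0 N hN), Wt lf rt (wt b c) h.1 * g h.1 := by
  rw [← (rh (N := N) (hN := hN)).tsum_eq (fun h => Wt lf rt (wt b c) h.1 * g h.1)]
  refine tsum_congr fun h => ?_
  have e1 : (rh h).1 = fun x => h.1 (rf x) := rfl
  rw [e1, Wt_rf]

theorem aT_rf {N : ℕ} (x : Fc N) : aT N (rf x) = aL N x := by
  unfold aT aL rf
  have h1 := x.1.2
  have : ((x.1.rev : Fin N) : ℕ) + 1 = N ↔ (x.1 : ℕ) = 0 := by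
    rw [Fin.val_rev]; omega
  simp only [this]

theorem aB_rf {N : ℕ} (x : Fc N) : aB N (rf x) = aR N x := by
  unfold aB aR rf
  have h1 := x.1.2
  have : ((x.1.rev : Fin N) : ℕ) = 0 ↔ (x.1 : ℕ) + 1 = N := by
    rw [Fin.val_rev]; omega
  simp only [this]

/-- the reflection of the faces as a permutation -/
def rfEquiv {N : ℕ} : Fc N ≃ Fc N := ⟨rf, rf, rf_rf, rf_rf⟩

theorem sum_aT {N : ℕ} (h : Fc N → ℤ) :
    ∑ x, aT N x * (h x : ℝ) = ∑ x, aL N x * (h (rf x) : ℝ) := by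
  rw [← (rfEquiv (N := N)).sum_comp]
  refine Finset.sum_congr rfl fun x _ => ?_
  have e1 : rfEquiv x = rf x := rfl
  rw [e1, aT_rf]

theorem sum_aB {N : ℕ} (h : Fc N → ℤ) :
    ∑ x, aB N x * (h x : ℝ) = ∑ x, aR N x * (h (rf x) : ℝ) := by
  rw [← (rfEquiv (N := N)).sum_comp]
  refine Finset.sum_congr rfl fun x _ => ?_
  have e1 : rfEquiv x = rf x := rfl
  rw [e1, aB_rf]

theorem sum_aL_mul {N : ℕ} (hN : 0 < N) (f : Fc N → ℝ) :
    ∑ x, aL N x * f x = (1 / N) * ∑ j : Fin N, f (⟨0, hN⟩, j, true) := by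
  rw [Fintype.sum_prod_type, Finset.sum_eq_single (⟨0, hN⟩ : Fin N)]
  · rw [Fintype.sum_prod_type, Finset.mul_sum]
    refine Finset.sum_congr rfl fun j _ => ?_
    rw [Fintype.sum_bool]
    simp [aL]
  · intro i _ hi
    refine Finset.sum_eq_zero fun y _ => ?_
    have : ¬ (((i : Fin N) : ℕ) = 0 ∧ y.2 = true) := fun h => hi (Fin.ext h.1)
    simp only [aL, this, if_false, zero_mul]
  · intro h; exact absurd (Finset.mem_univ _) h

theorem sum_aR_mul {N : ℕ} (hN : 0 < N) (f : Fc N → ℝ) :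
    ∑ x, aR N x * f x = (1 / N) * ∑ j : Fin N, f (⟨N - 1, by omega⟩, j, false) := by
  rw [Fintype.sum_prod_type, Finset.sum_eq_single (⟨N - 1, by omega⟩ : Fin N)]
  · rw [Fintype.sum_prod_type, Finset.mul_sum]
    refine Finset.sum_congr rfl fun j _ => ?_
    rw [Fintype.sum_bool]
    have : N - 1 + 1 = N := by omega
    simp [aR, this]
  · intro i _ hi
    refine Finset.sum_eq_zero fun y _ => ?_
    have : ¬ (((i : Fin N) : ℕ) + 1 = N ∧ y.2 = false) := fun h => hi (Fin.ext (by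
      have := h.1
      simp only
      omega))
    simp only [aR, this, if_false, zero_mul]
  · intro h; exact absurd (Finset.mem_univ _) h

theorem sum_aL {N : ℕ} (hN : 0 < N) : ∑ x, aL N x = 1 := by
  have := sum_aL_mul hN (fun _ => 1)
  simp only [mul_one] at this
  rw [this]
  simp
  field_simp

theorem sum_aR {N : ℕ} (hN : 0 < N) : ∑ x, aR N x = 1 := by
  have := sum_aR_mul hN (fun _ => 1)
  simp only [mul_one] at this
  rw [this]
  simp
  field_simp

theorem sum_aT' {N : ℕ} (hN : 0 < N) : ∑ x, aT N x = 1 := by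
  rw [← (rfEquiv (N := N)).sum_comp, ← sum_aL hN]
  exact Finset.sum_congr rfl fun x _ => aT_rf x

theorem sum_aB' {N : ℕ} (hN : 0 < N) : ∑ x, aB N x = 1 := by
  rw [← (rfEquiv (N := N)).sum_comp, ← sum_aR hN]
  exact Finset.sum_congr rfl fun x _ => aB_rf x

/-- the gap lemma on the block -/
theorem tri_gap (N : ℕ) (hN : 0 < N) (b c : ℝ) (hw : WOK (wt (N := N) b c))
    (hb : wI b 0 ≤ 2 * wI b 1) (hc : wI c 0 ^ 2 ≤ 2 * wI c 1 ^ 2)
    (hsum : Summable fun h : Ht (Fc N) (v0 N hN) => Wt lf rt (wt b c) h.1 * qq h.1)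
    (M : ℕ) (hM : 0 < M) :
    ∑' h : Ht (Fc N) (v0 N hN), Wt lf rt (wt b c) h.1 *
        Real.cos (2 * Real.pi * ∑ x, aL N x * (h.1 x : ℝ)) ≤
      -(1 / 2) * ∑' h : Ht (Fc N) (v0 N hN), Wt lf rt (wt b c) h.1 +
      108 * (2 * M + 1) * ∑' h : Ht (Fc N) (v0 N hN), Wt lf rt (wt b c) h.1 *
        (∑ x, aL N x * (h.1 x : ℝ) - ∑ x, aR N x * (h.1 x : ℝ)) ^ 2 +
      3 / 2 * (∑' h : Ht (Fc N) (v0 N hN), Wt lf rt (wt b c) h.1 *
        (∑ x, aL N x * (h.1 x : ℝ)) ^ 2) / M ^ 2 := by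
  have hpos : (0 : ℝ) < 1 / N := by
    have : (0 : ℝ) < N := by exact_mod_cast hN
    positivity
  have hs1 : Summable fun h : Ht (Fc N) (v0 N hN) => Wt lf rt (wt b c) h.1 := by
    have := summable_Wt (s := lf) (t := rt) hw hsum (fun _ => 1) 1
      (fun h => by rw [abs_one, one_mul]; exact one_le_qq h)
    simpa using this
  obtain ⟨C, hC⟩ := mul_aff_le (aL N) (aL N) 0
  have hs2 : Summable fun h : Ht (Fc N) (v0 N hN) => Wt lf rt (wt b c) h.1 *
      (∑ x, aL N x * (h.1 x : ℝ)) ^ 2 :=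
    summable_Wt (s := lf) (t := rt) hw hsum (fun h => (∑ x, aL N x * (h x : ℝ)) ^ 2) C
      (fun h => by
        have := hC h
        simp only [sub_zero] at this
        rw [sq]; exact this)
  have hhalf : ∀ e : Ed N, wt b c e 0 ≤ 2 * wt b c e 1 := by
    rintro (e | e | e)
    · exact hc
    · exact hb
    · exact hb
  refine gap_lemma (Ω := Ht (Fc N) (v0 N hN)) (fun h => Wt lf rt (wt b c) h.1)
    (fun h => ∑ x, aL N x * (h.1 x : ℝ)) (fun h => ∑ x, aR N x * (h.1 x : ℝ))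
    (fun h => ∑ x, aT N x * (h.1 x : ℝ)) (fun h => ∑ x, aB N x * (h.1 x : ℝ))
    (fun h => Wt_nonneg hw h.1) hs1 hs2 ?_ ?_ ?_ M hM
  · intro m d hd
    refine fk_two_level hw hhalf (v0 N hN) hsum (aL N) (aR N) (aT N) (aB N) ?_ (sum_aL hN)
      (sum_aR hN) ?_ (sum_aT' hN) (sum_aB' hN) ?_ m d hd
    · intro x; unfold aL; split_ifs
      · exact hpos.le
      · exact le_refl _
    · intro x; unfold aT; split_ifs
      · exact hpos.le
      · exact le_refl _
    · intro S T hST h h'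
      refine cross_tri (α := aL N) (β := aR N) (α' := aT N) (β' := aB N) ?_ ?_ ?_ ?_ S T hST h h'
      · intro x hx
        by_contra hx'
        exact hx (if_neg hx')
      · intro x hx
        by_contra hx'
        exact hx (if_neg hx')
      · intro x hx
        by_contra hx'
        exact hx (if_neg hx')
      · intro x hx
        by_contra hx'
        exact hx (if_neg hx')
  · intro a
    simp only [sum_aT]
    exact tsum_rf b c fun h => ind (a < ∑ x, aL N x * (h x : ℝ))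
  · simp only [sum_aT, sum_aB]
    exact tsum_rf b c fun h => (∑ x, aL N x * (h x : ℝ) - ∑ x, aR N x * (h x : ℝ)) ^ 2

end Vale.Agent.P159.H170
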